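import Vale.Agent.P267.H622.Loc

/-!
# P267 / XM-DESC (helper622): regularity, forms by types, line bundles under `ChartMap`s, descent
-/

set_option linter.unusedVariables false
set_option linter.unusedSectionVars false

open scoped Manifold ContDiff ComplexConjugate Matrix ComplexOrder
open MeasureTheory Set Filter Topology

noncomputable section

namespace Vale.Agent.P267.XT

open FL

section aux

variable {X : Type*} [TopologicalSpace X] [ChartedSpace C2 X] [IsManifold 𝓘(ℂ, C2) ω X]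
variable {V : Type*} [NormedAddCommGroup V] [NormedSpace ℂ V]

theorem loc10_change' {e e' : Ch X} (he : e ∈ atlas C2 X) (he' : e' ∈ atlas C2 X) {x : X}
    (hx : x ∈ e.source) (hx' : x ∈ e'.source) (c : X → Fin 2 → V) (i : Fin 2) :
    loc10 e c (e x) i = ∑ p, jacM e e' x p i • loc10 e' c (e' x) p := by
  simp only [loc10, e.left_inv hx, e'.left_inv hx', jac_eq he he' hx hx', Matrix.mul_apply,
    Fin.sum_univ_two]
  module

theorem loc11_change' {e e' : Ch X} (he : e ∈ atlas C2 X) (he' : e' ∈ atlas C2 X) {x : X}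
    (hx : x ∈ e.source) (hx' : x ∈ e'.source) (g : X → Matrix (Fin 2) (Fin 2) V) (i j : Fin 2) :
    loc11 e g (e x) i j =
      ∑ p, ∑ q, (jacM e e' x p i * conj (jacM e e' x q j)) • loc11 e' g (e' x) p q := by
  simp only [loc11, Matrix.of_apply, e.left_inv hx, e'.left_inv hx', jac_eq he he' hx hx',
    Matrix.mul_apply, Fin.sum_univ_two, map_add, map_mul]
  module

theorem loc10_contDiffAt_change' {n : WithTop ℕ∞} {e e' : Ch X} (he : e ∈ atlas C2 X)
    (he' : e' ∈ atlas C2 X) {x : X} (hx : x ∈ e.source) (hx' : x ∈ e'.source) {a : X → Fin 2 → V}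
    (h : ContDiffAt ℝ n (loc10 e' a) (e' x)) : ContDiffAt ℝ n (loc10 e a) (e x) := by
  rw [contDiffAt_pi]
  intro i
  have h1 : (fun z => loc10 e a z i) =ᶠ[𝓝 (e x)] fun z =>
      ∑ p, jacM e e' (e.symm z) p i • loc10 e' a (e' (e.symm z)) p := by
    filter_upwards [(isOpen_trans e e').mem_nhds (mem_trans hx hx')] with z hz
    have := loc10_change' he he' (e.map_target hz.1) hz.2 a i
    rwa [e.right_inv hz.1] at this
  refine ContDiffAt.congr_of_eventuallyEq ?_ h1
  have h3 : ContDiffAt ℝ n (fun z => e' (e.symm z)) (e x) :=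
    ((trans_analyticAt he he' hx hx').contDiffAt (n := n)).restrict_scalars ℝ
  refine ContDiffAt.sum fun p _ => ?_
  have h4 : ContDiffAt ℝ n (fun z => jacM e e' (e.symm z) p i) (e x) :=
    ((jacM_analyticAt he he' hx hx' p i).contDiffAt (n := n)).restrict_scalars ℝ
  refine h4.smul (ContDiffAt.comp (g := fun w => loc10 e' a w p) (e x) ?_ h3)
  have h6 := contDiffAt_pi.1 h p
  simpa only [e.left_inv hx] using h6

theorem loc11_contDiffAt_change' {n : WithTop ℕ∞} {e e' : Ch X} (he : e ∈ atlas C2 X)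
    (he' : e' ∈ atlas C2 X) {x : X} (hx : x ∈ e.source) (hx' : x ∈ e'.source)
    {g : X → Matrix (Fin 2) (Fin 2) V}
    (h : ∀ i j, ContDiffAt ℝ n (fun z => loc11 e' g z i j) (e' x)) (i j : Fin 2) :
    ContDiffAt ℝ n (fun z => loc11 e g z i j) (e x) := by
  have h1 : (fun z => loc11 e g z i j) =ᶠ[𝓝 (e x)] fun z =>
      ∑ p, ∑ q, (jacM e e' (e.symm z) p i * conj (jacM e e' (e.symm z) q j)) •
        loc11 e' g (e' (e.symm z)) p q := by
    filter_upwards [(isOpen_trans e e').mem_nhds (mem_trans hx hx')] with z hz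
    have := loc11_change' he he' (e.map_target hz.1) hz.2 g i j
    rwa [e.right_inv hz.1] at this
  refine ContDiffAt.congr_of_eventuallyEq ?_ h1
  have h3 : ContDiffAt ℝ n (fun z => e' (e.symm z)) (e x) :=
    ((trans_analyticAt he he' hx hx').contDiffAt (n := n)).restrict_scalars ℝ
  have h4 : ∀ p i, ContDiffAt ℝ n (fun z => jacM e e' (e.symm z) p i) (e x) := fun p i =>
    ((jacM_analyticAt he he' hx hx' p i).contDiffAt (n := n)).restrict_scalars ℝ
  refine ContDiffAt.sum fun p _ => ContDiffAt.sum fun q _ => ?_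
  have h5 : ContDiffAt ℝ n (fun z => conj (jacM e e' (e.symm z) q j)) (e x) :=
    (Complex.conjCLE.contDiff.contDiffAt).comp (e x) (h4 q j)
  refine ((h4 p i).mul h5).smul (ContDiffAt.comp (g := fun w => loc11 e' g w p q) (e x) ?_ h3)
  simpa only [e.left_inv hx] using h p q

theorem reg10_iff' {n : WithTop ℕ∞} {a : X → Fin 2 → V} :
    Reg10 n a ↔ ∀ x, ContDiffAt ℝ n (loc10 (chartAt C2 x) a) (chartAt C2 x x) := by
  refine ⟨fun h x => (h _ (chart_mem_atlas C2 x)).contDiffAt
    ((chartAt C2 x).open_target.mem_nhds (mem_chart_target C2 x)), fun h e he => ?_⟩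
  intro z hz
  refine ContDiffAt.contDiffWithinAt ?_
  have := loc10_contDiffAt_change' he (chart_mem_atlas C2 (e.symm z)) (e.map_target hz)
    (mem_chart_source C2 (e.symm z)) (h (e.symm z))
  rwa [e.right_inv hz] at this

theorem reg11_iff' {n : WithTop ℕ∞} {g : X → Matrix (Fin 2) (Fin 2) V} :
    Reg11 n g ↔
      ∀ x i j, ContDiffAt ℝ n (fun z => loc11 (chartAt C2 x) g z i j) (chartAt C2 x x) := by
  refine ⟨fun h x i j => (h _ (chart_mem_atlas C2 x) i j).contDiffAt
    ((chartAt C2 x).open_target.mem_nhds (mem_chart_target C2 x)), fun h e he i j => ?_⟩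
  intro z hz
  refine ContDiffAt.contDiffWithinAt ?_
  have := loc11_contDiffAt_change' he (chart_mem_atlas C2 (e.symm z)) (e.map_target hz)
    (mem_chart_source C2 (e.symm z)) (h (e.symm z)) i j
  rwa [e.right_inv hz] at this

theorem holOn_iff' {κ : ℤ} {s : X → V} {U : Set X} (hU : IsOpen U) :
    HolOn κ s U ↔
      ∀ x ∈ U, DifferentiableAt ℂ (loc0 κ (chartAt C2 x) s) (chartAt C2 x x) := by
  have hop : ∀ e : Ch X, IsOpen (e.target ∩ e.symm ⁻¹' U) := fun e =>
    e.symm.isOpen_inter_preimage hU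
  constructor
  · intro h x hx
    refine (h _ (chart_mem_atlas C2 x)).differentiableAt ((hop _).mem_nhds ?_)
    exact ⟨mem_chart_target C2 x, by simpa using hx⟩
  · intro h e he z hz
    refine DifferentiableAt.differentiableWithinAt ?_
    have hx : e.symm z ∈ e.source := e.map_target hz.1
    have hx' : e.symm z ∈ (chartAt C2 (e.symm z)).source := mem_chart_source C2 _
    have he' := chart_mem_atlas C2 (e.symm z)
    have h0 := h _ hz.2
    rw [← e.right_inv hz.1]
    set x := e.symm z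
    set e' := chartAt C2 x
    have h1 : loc0 κ e s =ᶠ[𝓝 (e x)] fun z => (jacM e e' (e.symm z)).det ^ κ •
        loc0 κ e' s (e' (e.symm z)) := by
      filter_upwards [(isOpen_trans e e').mem_nhds (mem_trans hx hx')] with z hz
      have := loc0_change (κ := κ) he he' (e.map_target hz.1) hz.2 s
      rwa [e.right_inv hz.1] at this
    refine DifferentiableAt.congr_of_eventuallyEq ?_ h1
    refine (detz_analyticAt he he' hx hx' κ).differentiableAt.smul
      (DifferentiableAt.comp (g := loc0 κ e' s) (e x) ?_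
        (trans_analyticAt he he' hx hx').differentiableAt)
    simpa only [e.left_inv hx] using h0

end aux

variable {M N : Type*} [TopologicalSpace M] [ChartedSpace C2 M] [TopologicalSpace N]
  [ChartedSpace C2 N] [IsManifold 𝓘(ℂ, C2) ω M] [IsManifold 𝓘(ℂ, C2) ω N]

theorem contDiffAt_iff_of_ev {V W : Type*} [NormedAddCommGroup V] [NormedSpace ℝ V]
    [NormedAddCommGroup W] [NormedSpace ℝ W] {n : WithTop ℕ∞} {f g : V → W} {z : V}
    (h : f =ᶠ[𝓝 z] g) : ContDiffAt ℝ n f z ↔ ContDiffAt ℝ n g z :=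
  ⟨fun H => H.congr_of_eventuallyEq h.symm, fun H => H.congr_of_eventuallyEq h⟩

/-! ### forms by types -/

/-- pullback of two-forms -/
def pull2 {M N : Type*} (q : M → N) (F : TwoF N) : TwoF M :=
  ⟨fun x => F.f20 (q x), fun x => F.f11 (q x), fun x => F.f02 (q x)⟩

theorem twoF_ext {X : Type*} {F G : TwoF X} (h1 : ∀ x, F.f20 x = G.f20 x)
    (h2 : ∀ x, F.f11 x = G.f11 x) (h3 : ∀ x, F.f02 x = G.f02 x) : F = G := by
  obtain ⟨a, b, c⟩ := F
  obtain ⟨a', b', c'⟩ := G
  simp only [TwoF.mk.injEq]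
  exact ⟨funext h1, funext h2, funext h3⟩

theorem oneF_ext {X : Type*} {F G : OneF X} (h1 : ∀ x, F.f10 x = G.f10 x)
    (h2 : ∀ x, F.f01 x = G.f01 x) : F = G := by
  obtain ⟨a, b⟩ := F
  obtain ⟨a', b'⟩ := G
  simp only [OneF.mk.injEq]
  exact ⟨funext h1, funext h2⟩

/-- pullback of one-forms -/
def pull1 {M N : Type*} (q : M → N) (A : OneF N) : OneF M :=
  ⟨fun x => A.f10 (q x), fun x => A.f01 (q x)⟩

namespace ChartMap

variable {q : M → N} (hq : ChartMap q)
include hq

variable {V : Type*} [NormedAddCommGroup V] [NormedSpace ℂ V]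

theorem reg10_at {n : WithTop ℕ∞} (s : N → Fin 2 → V) (x : M) :
    ContDiffAt ℝ n (loc10 (chartAt C2 x) fun y => s (q y)) (chartAt C2 x x) ↔
      ContDiffAt ℝ n (loc10 (chartAt C2 (q x)) s) (chartAt C2 (q x) (q x)) := by
  rw [hq.apply_eq]
  exact contDiffAt_iff_of_ev (hq.loc10_ev s (hq.chRel x))

theorem reg11_at {n : WithTop ℕ∞} (g : N → Matrix (Fin 2) (Fin 2) V) (x : M) (i j : Fin 2) :
    ContDiffAt ℝ n (fun z => loc11 (chartAt C2 x) (fun y => g (q y)) z i j) (chartAt C2 x x) ↔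
      ContDiffAt ℝ n (fun z => loc11 (chartAt C2 (q x)) g z i j) (chartAt C2 (q x) (q x)) := by
  rw [hq.apply_eq]
  refine contDiffAt_iff_of_ev ?_
  filter_upwards [hq.loc11_ev g (hq.chRel x)] with z hz
  rw [hz]

theorem reg10_comp {n : WithTop ℕ∞} {s : N → Fin 2 → V} (h : Reg10 n s) :
    Reg10 n fun y => s (q y) :=
  reg10_iff'.2 fun x => (hq.reg10_at s x).2 (reg10_iff'.1 h (q x))

theorem reg11_comp {n : WithTop ℕ∞} {g : N → Matrix (Fin 2) (Fin 2) V} (h : Reg11 n g) :
    Reg11 n fun y => g (q y) :=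
  reg11_iff'.2 fun x i j => (hq.reg11_at g x i j).2 (reg11_iff'.1 h (q x) i j)

theorem reg10_comp_iff (hs : Function.Surjective q) {n : WithTop ℕ∞} {s : N → Fin 2 → V} :
    (Reg10 n fun y => s (q y)) ↔ Reg10 n s := by
  refine ⟨fun h => reg10_iff'.2 fun y => ?_, hq.reg10_comp⟩
  obtain ⟨x, rfl⟩ := hs y
  exact (hq.reg10_at s x).1 (reg10_iff'.1 h x)

theorem reg11_comp_iff (hs : Function.Surjective q) {n : WithTop ℕ∞}
    {g : N → Matrix (Fin 2) (Fin 2) V} : (Reg11 n fun y => g (q y)) ↔ Reg11 n g := by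
  refine ⟨fun h => reg11_iff'.2 fun y i j => ?_, hq.reg11_comp⟩
  obtain ⟨x, rfl⟩ := hs y
  exact (hq.reg11_at g x i j).1 (reg11_iff'.1 h x i j)

theorem holOn_at (κ : ℤ) (s : N → V) (x : M) :
    DifferentiableAt ℂ (loc0 κ (chartAt C2 x) fun y => s (q y)) (chartAt C2 x x) ↔
      DifferentiableAt ℂ (loc0 κ (chartAt C2 (q x)) s) (chartAt C2 (q x) (q x)) := by
  rw [hq.apply_eq]
  have h := hq.loc0_ev κ s (hq.chRel x)
  exact ⟨fun H => H.congr_of_eventuallyEq h.symm, fun H => H.congr_of_eventuallyEq h⟩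

theorem holOn_comp {κ : ℤ} {s : N → V} {U : Set N} (hU : IsOpen U) (h : HolOn κ s U) :
    HolOn κ (fun y => s (q y)) (q ⁻¹' U) :=
  (holOn_iff' (hU.preimage hq.cont)).2 fun x hx =>
    (hq.holOn_at κ s x).2 ((holOn_iff' hU).1 h (q x) hx)

theorem holOn_comp_iff (hs : Function.Surjective q) {κ : ℤ} {s : N → V} {U : Set N}
    (hU : IsOpen U) : HolOn κ (fun y => s (q y)) (q ⁻¹' U) ↔ HolOn κ s U := by
  refine ⟨fun h => (holOn_iff' hU).2 fun y hy => ?_, hq.holOn_comp hU⟩
  obtain ⟨x, rfl⟩ := hs y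
  exact (hq.holOn_at κ s x).1 ((holOn_iff' (hU.preimage hq.cont)).1 h x hy)

/-! ### one-forms and two-forms -/

theorem dF0_comp (s : N → ℂ) : dF0 (fun x => s (q x)) = pull1 q (dF0 s) := by
  exact oneF_ext (fun x => hq.del0_comp s x) fun x => hq.dbar0_comp 0 s x

theorem d_pull1 (A : OneF N) : (pull1 q A).d = pull2 q A.d := by
  refine twoF_ext (fun x => hq.del10_comp _ x) (fun x => ?_) fun x => hq.dbar1_comp 0 _ x
  have h1 := hq.del1_comp A.f01 x
  have h2 := hq.dbar10_comp A.f10 x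
  simp only [OneF.d, pull1, pull2, Pi.add_apply]
  rw [h1, h2]

theorem d21_pull2 (F : TwoF N) (x : M) (j : Fin 2) : (pull2 q F).d21 x j = F.d21 (q x) j := by
  have h := hq.loc11_ev F.f11 (hq.chRel x)
  have h1 : ∀ i k l, dz i (fun z => loc11 (chartAt C2 x) (fun y => F.f11 (q y)) z k l)
      (chartAt C2 x x) = dz i (fun z => loc11 (chartAt C2 (q x)) F.f11 z k l) (chartAt C2 x x) := by
    intro i k l
    refine dz_congr ?_ i
    filter_upwards [h] with z hz
    rw [hz]
  simp only [TwoF.d21, pull2]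
  rw [hq.dbar0_comp, hq.apply_eq, h1, h1]

theorem d12_pull2 (F : TwoF N) (x : M) (j : Fin 2) : (pull2 q F).d12 x j = F.d12 (q x) j := by
  have h := hq.loc11_ev F.f11 (hq.chRel x)
  have h1 : ∀ i k l, dzb i (fun z => loc11 (chartAt C2 x) (fun y => F.f11 (q y)) z k l)
      (chartAt C2 x x) = dzb i (fun z => loc11 (chartAt C2 (q x)) F.f11 z k l)
        (chartAt C2 x x) := by
    intro i k l
    refine dzb_congr ?_ i
    filter_upwards [h] with z hz
    rw [hz]
  simp only [TwoF.d12, pull2]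
  rw [hq.apply_eq, dz_congr (hq.loc2_ev 0 F.f02 (hq.chRel x)), h1, h1]

theorem closed_pull2 {F : TwoF N} (h : F.Closed) : (pull2 q F).Closed :=
  ⟨fun x j => by rw [hq.d21_pull2, h.1], fun x i => by rw [hq.d12_pull2, h.2]⟩

theorem closed_pull2_iff (hs : Function.Surjective q) {F : TwoF N} :
    (pull2 q F).Closed ↔ F.Closed := by
  refine ⟨fun h => ⟨fun y j => ?_, fun y i => ?_⟩, hq.closed_pull2⟩
  · obtain ⟨x, rfl⟩ := hs y
    rw [← hq.d21_pull2, h.1]
  · obtain ⟨x, rfl⟩ := hs y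
    rw [← hq.d12_pull2, h.2]

theorem smooth_pull2 {F : TwoF N} (h : F.Smooth) : (pull2 q F).Smooth :=
  ⟨hq.reg0_comp h.s20, hq.reg11_comp h.s11, hq.reg2_comp h.s02⟩

theorem smooth_pull2_iff (hs : Function.Surjective q) {F : TwoF N} :
    (pull2 q F).Smooth ↔ F.Smooth :=
  ⟨fun h => ⟨(hq.reg0_comp_iff hs).1 h.s20, (hq.reg11_comp_iff hs).1 h.s11,
    (hq.reg2_comp_iff hs).1 h.s02⟩, hq.smooth_pull2⟩

theorem smooth_pull1 {F : OneF N} (h : F.Smooth) : (pull1 q F).Smooth :=
  ⟨hq.reg10_comp h.s10, hq.reg1_comp h.s01⟩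

theorem smooth_pull1_iff (hs : Function.Surjective q) {F : OneF N} :
    (pull1 q F).Smooth ↔ F.Smooth :=
  ⟨fun h => ⟨(hq.reg10_comp_iff hs).1 h.s10, (hq.reg1_comp_iff hs).1 h.s01⟩, hq.smooth_pull1⟩

end ChartMap

theorem wedge_pull2 {M N : Type*} (q : M → N) (F G : TwoF N) (x : M) :
    (pull2 q F).wedge (pull2 q G) x = F.wedge G (q x) := rfl

theorem real_pull2 {M N : Type*} (q : M → N) {F : TwoF N} (h : F.Real) : (pull2 q F).Real :=
  fun x => h (q x)

theorem real_pull2_iff {M N : Type*} {q : M → N} (hs : Function.Surjective q) {F : TwoF N} :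
    (pull2 q F).Real ↔ F.Real := by
  refine ⟨fun h y => ?_, real_pull2 q⟩
  obtain ⟨x, rfl⟩ := hs y
  exact h x

/-! ### metrics -/

theorem ChartMap.isHerm_comp {q : M → N} (hq : ChartMap q) {h : N → Matrix (Fin 2) (Fin 2) ℂ}
    (hh : IsHerm h) : IsHerm fun x => h (q x) :=
  ⟨fun x => hh.posDef (q x), hq.reg11_comp hh.smooth⟩

theorem ChartMap.isHerm_comp_iff {q : M → N} (hq : ChartMap q) (hs : Function.Surjective q)
    {h : N → Matrix (Fin 2) (Fin 2) ℂ} : (IsHerm fun x => h (q x)) ↔ IsHerm h := by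
  refine ⟨fun H => ⟨fun y => ?_, (hq.reg11_comp_iff hs).1 H.smooth⟩, hq.isHerm_comp⟩
  obtain ⟨x, rfl⟩ := hs y
  exact H.posDef x

theorem trh_comp {M N : Type*} (q : M → N) (h g : N → Matrix (Fin 2) (Fin 2) ℂ) (x : M) :
    trh (fun y => h (q y)) (fun y => g (q y)) x = trh h g (q x) := rfl

theorem nsq1_comp {M N : Type*} (q : M → N) {V : Type*} [NormedAddCommGroup V]
    [InnerProductSpace ℂ V] (h : N → Matrix (Fin 2) (Fin 2) ℂ) (a : N → Fin 2 → V) (x : M) :
    nsq1 (fun y => h (q y)) (fun y => a (q y)) x = nsq1 h a (q x) := rfl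

theorem ChartMap.trh_ddb_comp {q : M → N} (hq : ChartMap q) (h : N → Matrix (Fin 2) (Fin 2) ℂ) (u : N → ℂ)
    (x : M) : trh (fun y => h (q y)) (ddb fun y => u (q y)) x = trh h (ddb u) (q x) := by
  rw [trh, trh, hq.ddb_comp]

/-! ### line bundles -/

section LB

variable {ι : Type} [Fintype ι] [DecidableEq ι]

variable {q : M → N} (hq : ChartMap q)

theorem ChartMap.lb_curv (L : LB N ι) : (hq.lb L).curv = pull2 q L.curv := by
  exact twoF_ext (fun x => hq.lb_F20 L x) (fun x => hq.lb_F11 L x)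
    fun x => hq.lb_F02 L x

theorem ChartMap.lb_chern (L : LB N ι) (a : N → Fin 2 → ℂ) :
    (hq.lb L).chern (fun x => a (q x)) = pull2 q (L.chern a) := by
  refine twoF_ext (fun x => ?_) (fun x => ?_) fun x => ?_
  · have h := hq.del10_comp (fun y i => -conj (a y i)) x
    simp only [LB.chern, pull2]
    rw [hq.lb_F20, h]
  · have h := hq.dbar10_comp (fun y i => -conj (a y i)) x
    simp only [LB.chern, pull2]
    rw [hq.lb_F11, hq.del1_comp, h]
  · simp only [LB.chern, pull2]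
    rw [hq.lb_F02, hq.dbar1_comp]

theorem ChartMap.lb_isHol_iff (hs : Function.Surjective q) {L : LB N ι} {a : N → Fin 2 → ℂ} :
    ((hq.lb L).IsHol fun x => a (q x)) ↔ L.IsHol a := by
  refine ⟨fun h => ⟨(hq.reg1_comp_iff hs).1 h.smooth, fun y => ?_⟩, hq.lb_isHol⟩
  obtain ⟨x, rfl⟩ := hs y
  rw [← hq.dbar1_comp, ← hq.lb_F02]
  exact h.integrable x

theorem ChartMap.lb_sec_iff (hs : Function.Surjective q) {L : LB N ι}
    {s : N → EuclideanSpace ℂ ι} : ((hq.lb L).Sec fun x => s (q x)) ↔ L.Sec s := by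
  refine ⟨fun h y => ?_, hq.lb_sec⟩
  obtain ⟨x, rfl⟩ := hs y
  exact h x

theorem ChartMap.lb_sec1_iff (hs : Function.Surjective q) {L : LB N ι}
    {s : N → Fin 2 → EuclideanSpace ℂ ι} :
    ((hq.lb L).Sec1 fun x => s (q x)) ↔ L.Sec1 s := by
  refine ⟨fun h y => ?_, hq.lb_sec1⟩
  obtain ⟨x, rfl⟩ := hs y
  exact h x

theorem ChartMap.lb_triv (i₀ : ι) : hq.lb (LB.triv (X := N) i₀) = LB.triv i₀ := rfl

theorem ChartMap.lb_tensor {ι' : Type} [Fintype ι'] [DecidableEq ι'] (L : LB N ι)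
    (L' : LB N ι') : hq.lb (L.tensor L') = (hq.lb L).tensor (hq.lb L') := rfl

/-! ### descent of line bundles -/

/-- the line bundle on `N` whose pullback is `L`; `P'` is the descended family of projectors -/
def ChartMap.descLB (hs : Function.Surjective q) (L : LB M ι) (P' : N → Matrix ι ι ℂ)
    (hP : ∀ x, L.P x = P' (q x)) : LB N ι where
  P := P'
  smooth i j := (hq.reg0_comp_iff hs).1 (by
    have := L.smooth i j
    simp only [hP] at this
    exact this)
  herm y := by
    obtain ⟨x, rfl⟩ := hs y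
    rw [← hP]; exact L.herm x
  idem y := by
    obtain ⟨x, rfl⟩ := hs y
    rw [← hP]; exact L.idem x
  tr y := by
    obtain ⟨x, rfl⟩ := hs y
    rw [← hP]; exact L.tr x

theorem ChartMap.lb_descLB (hs : Function.Surjective q) (L : LB M ι) (P' : N → Matrix ι ι ℂ)
    (hP : ∀ x, L.P x = P' (q x)) : hq.lb (hq.descLB hs L P' hP) = L := by
  obtain ⟨P, _, _, _, _⟩ := L
  simp only [ChartMap.lb, ChartMap.descLB, LB.mk.injEq]
  funext x
  exact (hP x).symm

end LB

/-! ### descent of functions -/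

/-- the function on the quotient -/
def desc {M N : Type*} {q : M → N} (hs : Function.Surjective q) {W : Type*} (u : M → W) (y : N) :
    W := u (Function.surjInv hs y)

theorem desc_apply {M N : Type*} {q : M → N} (hs : Function.Surjective q) {W : Type*} {u : M → W}
    (hu : ∀ x y, q x = q y → u x = u y) (x : M) : desc hs u (q x) = u x :=
  hu _ _ (Function.surjInv_eq hs (q x))

theorem exists_desc {M N : Type*} {q : M → N} (hs : Function.Surjective q) {W : Type*} {u : M → W}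
    (hu : ∀ x y, q x = q y → u x = u y) : ∃! v : N → W, ∀ x, u x = v (q x) := by
  refine ⟨desc hs u, fun x => (desc_apply hs hu x).symm, fun v hv => ?_⟩
  funext y
  obtain ⟨x, rfl⟩ := hs y
  rw [← hv, desc_apply hs hu]

end Vale.Agent.P267.XT
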