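import Vale.Agent.P267.H622.Equi

/-!
# P267 / XM-DESC (helper622): cohomology of `CovM hh m` and equivariant objects on `Cov hh`
-/

set_option linter.unusedVariables false
set_option linter.unusedSectionVars false

open scoped Manifold ContDiff ComplexConjugate Matrix ComplexOrder
open MeasureTheory Set Filter Topology

noncomputable section

namespace Vale.Agent.P267.XT

open FL H158

variable {X : Type} [TopologicalSpace X] [ChartedSpace C2 X] [IsManifold 𝓘(ℂ, C2) ω X]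
  {hh : C(X, UnitAddCircle)} {m : ℕ} [NeZero m]
variable {ι : Type} [Fintype ι] [DecidableEq ι]


section

variable {f : Cov hh → ℝ} (hf : Reg0 ∞ 0 fun z => (f z : ℂ))
  (hfm : ∀ z, f (Cov.shift m z) = f z + m) (lam : ℂ)
  {L : LB (Cov hh) ι} (hP : ∀ z, L.P (Cov.shift m z) = L.P z)
  {a : Cov hh → Fin 2 → ℂ} (ha : ∀ z, a (Cov.shift m z) = a z)

theorem lbM_dual (hP' : ∀ z, L.dual.P (Cov.shift m z) = L.dual.P z) :
    (lbM m L hP).dual = lbM m L.dual hP' := rfl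

include hf hfm ha in
theorem neg_strM : -(strM m lam f a) = strM m (-lam) f (-a) := by
  funext y
  obtain ⟨z, rfl⟩ := Cov.surjective_toM (h := hh) (m := m) y
  have h1 := strM_toM hf hfm (-lam) (a := -a) (fun z => by rw [Pi.neg_apply, Pi.neg_apply, ha]) z
  rw [Pi.neg_apply, strM_toM hf hfm lam ha, h1]
  funext i
  simp only [twa, Pi.neg_apply]
  ring

include hf hfm ha in
/-- equivariant holomorphic sections vanish ⇒ `H⁰ = 0` -/
theorem H0_eq_bot_of_equi {κ : ℤ} {μ : ℂ} (hμ : μ = Complex.exp (lam * m))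
    (H : ∀ u : Cov hh → EuclideanSpace ℂ ι, Reg0 ∞ κ u → L.Sec u → (∀ z, u (Cov.shift m z) = μ • u z) →
      (∀ z i, L.db0 a κ u z i = 0) → ∀ z, u z = 0) :
    RR.H0 (lbM m L hP) (strM m lam f a) κ = ⊥ := by
  subst hμ
  rw [eq_bot_iff]
  intro s hs
  obtain ⟨⟨h1, h2⟩, h3⟩ := (RR.mem_H0 _ _ _).1 hs
  have h4 := H (up m lam f s) ((reg0_up hf lam).2 h1) ((sec_up lam hP).2 h2)
    (up_shift hfm lam s) (fun z i => by
      rw [db0_up hf hfm lam hP ha h1 h2, h3]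
      simp)
  exact (Submodule.mem_bot _).2 (funext ((up_eq_zero_iff lam).1 h4))

include hf hfm ha in
/-- `H⁰ = 0` ⇒ equivariant holomorphic sections vanish -/
theorem equi_eq_zero_of_H0 {κ : ℤ} {μ : ℂ} (hμ : μ = Complex.exp (lam * m))
    (H : RR.H0 (lbM m L hP) (strM m lam f a) κ = ⊥) {u : Cov hh → EuclideanSpace ℂ ι} (hu : Reg0 ∞ κ u)
    (hS : L.Sec u) (hus : ∀ z, u (Cov.shift m z) = μ • u z) (hd : ∀ z i, L.db0 a κ u z i = 0)
    (z : Cov hh) : u z = 0 := by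
  subst hμ
  have h0 := up_down hfm lam hus
  set s := down m lam f u
  have h1 : Reg0 ∞ κ s := (reg0_up hf lam).1 (by rwa [h0])
  have h2 : (lbM m L hP).Sec s := (sec_up lam hP).1 (by rwa [h0])
  have h3 : s ∈ RR.H0 (lbM m L hP) (strM m lam f a) κ := by
    refine (RR.mem_H0 _ _ _).2 ⟨⟨h1, h2⟩, ?_⟩
    funext y i
    obtain ⟨z, rfl⟩ := Cov.surjective_toM (h := hh) (m := m) y
    have h4 := db0_up hf hfm lam hP ha h1 h2 z i
    rw [h0, hd] at h4
    exact (smul_eq_zero.1 h4.symm).resolve_left (tw_ne_zero lam f z)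
  rw [H, Submodule.mem_bot] at h3
  rw [← h0]
  exact (up_eq_zero_iff lam).2 (fun y => congrFun h3 y) z

/-- `r + 1` vectors in a space of dimension `≤ r` are linearly dependent -/
theorem exists_dep {W : Type*} [AddCommGroup W] [Module ℂ W] [FiniteDimensional ℂ W] {r : ℕ}
    (h : Module.finrank ℂ W ≤ r) (v : Fin (r + 1) → W) :
    ∃ c : Fin (r + 1) → ℂ, c ≠ 0 ∧ ∑ i, c i • v i = 0 := by
  have h1 : ¬ LinearIndependent ℂ v := by
    intro h1
    have := h1.fintype_card_le_finrank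
    rw [Fintype.card_fin] at this
    omega
  rw [Fintype.not_linearIndependent_iff] at h1
  obtain ⟨c, hc, i, hi⟩ := h1
  exact ⟨c, fun h => hi (congrFun h i), hc⟩

include hf hfm ha in
/-- `dim H¹(X_m, (L, a) ⊗ L_μ) ≤ r` on `CovM hh m` implies the statement on `Cov hh` -/
theorem equi_H1_of_h1_le {κ : ℤ} {μ : ℂ} (hμ : μ = Complex.exp (lam * m)) {r : ℕ}
    (hfin : FiniteDimensional ℂ (RR.H1 (lbM m L hP) (strM m lam f a) κ))
    (hr : RR.h1 (lbM m L hP) (strM m lam f a) κ ≤ r)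
    (g : Fin (r + 1) → Cov hh → Fin 2 → (EuclideanSpace ℂ ι))
    (hg : ∀ i, Reg1 ∞ κ (g i) ∧ L.Sec1 (g i) ∧ (∀ z, g i (Cov.shift m z) = μ • g i z) ∧
      ∀ x, L.db1 a κ (g i) x = 0) :
    ∃ c : Fin (r + 1) → ℂ, c ≠ 0 ∧ ∃ u : Cov hh → (EuclideanSpace ℂ ι), Reg0 ∞ κ u ∧ L.Sec u ∧
      (∀ z, u (Cov.shift m z) = μ • u z) ∧ ∀ x k, L.db0 a κ u x k = ∑ i, c i • g i x k := by
  subst hμ
  have h0 : ∀ i, up m lam f (down m lam f (g i)) = g i := fun i => up_down hfm lam (hg i).2.2.1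
  set s : Fin (r + 1) → CovM hh m → Fin 2 → (EuclideanSpace ℂ ι) := fun i => down m lam f (g i) with hs
  have h1 : ∀ i, Reg1 ∞ κ (s i) := fun i => (reg1_up hf lam).1 (by rw [hs, h0]; exact (hg i).1)
  have h2 : ∀ i, (lbM m L hP).Sec1 (s i) := fun i =>
    (sec1_up lam hP).1 (by rw [hs, h0]; exact (hg i).2.1)
  have h3 : ∀ i, s i ∈ RR.Z1 (lbM m L hP) (strM m lam f a) κ := by
    intro i
    refine (RR.mem_Z1 _ _ _).2 ⟨⟨h1 i, h2 i⟩, ?_⟩
    funext y
    obtain ⟨z, rfl⟩ := Cov.surjective_toM (h := hh) (m := m) y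
    have h4 := db1_up hf hfm lam hP ha (h1 i) (h2 i) z
    rw [hs, h0, (hg i).2.2.2] at h4
    exact (smul_eq_zero.1 h4.symm).resolve_left (tw_ne_zero lam f z)
  obtain ⟨c, hc, hsum⟩ := exists_dep hr fun i =>
    (Submodule.Quotient.mk ⟨s i, h3 i⟩ : RR.H1 (lbM m L hP) (strM m lam f a) κ)
  refine ⟨c, hc, ?_⟩
  have h5 : (Submodule.Quotient.mk (∑ i, c i • (⟨s i, h3 i⟩ :
      RR.Z1 (lbM m L hP) (strM m lam f a) κ)) : RR.H1 (lbM m L hP) (strM m lam f a) κ) = 0 := by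
    rw [← hsum, ← Submodule.mkQ_apply, map_sum]
    refine Finset.sum_congr rfl fun i _ => ?_
    rw [map_smul, Submodule.mkQ_apply]
  rw [Submodule.Quotient.mk_eq_zero, Submodule.mem_comap] at h5
  obtain ⟨t, ⟨ht1, ht2⟩, ht3⟩ := (RR.mem_B1 _ _ _).1 h5
  refine ⟨up m lam f t, (reg0_up hf lam).2 ht1, (sec_up lam hP).2 ht2, up_shift hfm lam t,
    fun z k => ?_⟩
  rw [db0_up hf hfm lam hP ha ht1 ht2, ht3]
  have h6 : ((RR.Z1 (lbM m L hP) (strM m lam f a) κ).subtype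
      (∑ i, c i • (⟨s i, h3 i⟩ : RR.Z1 (lbM m L hP) (strM m lam f a) κ))) = ∑ i, c i • s i := by
    simp
  rw [h6, Finset.sum_apply, Finset.sum_apply, Finset.smul_sum]
  refine Finset.sum_congr rfl fun i _ => ?_
  have h7 : g i z k = up m lam f (s i) z k := by rw [hs, h0]
  rw [h7, up, Pi.smul_apply, Pi.smul_apply, Pi.smul_apply, smul_comm]

end

/-- the same in the language of `H877/Iface.lean` -/
theorem H1m_of_h1_le {D : XTData (Cov hh)} (hD : D.γ = Cov.γ) {L : LB (Cov hh) ι}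
    (hP : ∀ z, L.P (Cov.shift m z) = L.P z) {a : Cov hh → Fin 2 → ℂ}
    (ha : ∀ z, a (Cov.shift m z) = a z) {lam μ : ℂ} (hμ : μ = Complex.exp (lam * m)) {r : ℕ}
    (hfin : FiniteDimensional ℂ (RR.H1 (lbM m L hP) (strM m lam D.f a) 0))
    (hr : RR.h1 (lbM m L hP) (strM m lam D.f a) 0 ≤ r) : D.H1m L a m μ r := by
  intro g hg
  have hsh : ∀ z, D.sh m z = Cov.shift m z := sh_eq_shift hD m
  have hfm : ∀ z, D.f (Cov.shift m z) = D.f z + m := fun z => by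
    rw [← hsh, D.f_sh]; push_cast; rfl
  obtain ⟨c, hc, u, h1, h2, h3, h4⟩ := equi_H1_of_h1_le D.f_smooth hfm lam hP ha hμ hfin hr g
    fun i => ⟨(hg i).1, (hg i).2.1, fun z => by rw [← hsh]; exact (hg i).2.2.1 z, (hg i).2.2.2⟩
  exact ⟨c, hc, u, h1, h2, fun z => by rw [hsh]; exact h3 z, h4⟩

end Vale.Agent.P267.XT
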