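import Vale.Agent.P267.H622.Push

/-!
# P267 / XM-DESC (helper622): integrals over `Cov hh`, `CovM hh m`, `X`
-/

set_option linter.unusedVariables false
set_option linter.unusedSectionVars false

open scoped Manifold ContDiff ComplexConjugate Matrix ComplexOrder
open MeasureTheory Set Filter Topology Function

noncomputable section

namespace Vale.Agent.P267.XT

open FL H158 Vale.Agent.P267.H928

section top

variable {X : Type*} [TopologicalSpace X] {hh : C(X, UnitAddCircle)} {m : ℕ} [NeZero m]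

instance instSigmaCompactCov [CompactSpace X] : SigmaCompactSpace (Cov hh) := by
  refine ⟨⟨fun n : ℕ => {z | -(n : ℝ) ≤ Cov.f z ∧ Cov.f z ≤ n}, fun n => Cov.isCompact_slab _ _,
    ?_⟩⟩
  refine eq_univ_of_forall fun z => ?_
  obtain ⟨n, hn⟩ := exists_nat_ge |Cov.f z|
  rw [mem_iUnion]
  exact ⟨n, (abs_le.1 hn).1, (abs_le.1 hn).2⟩

variable {W : Type*} [AddCommMonoid W]

theorem push_p (b : Cov hh → W) (z : Cov hh) :
    push Cov.p b (Cov.p z) = ∑ᶠ k : ℤ, b (Cov.shift k z) := by
  have h1 : Cov.p ⁻¹' {Cov.p z} = range fun k : ℤ => Cov.shift k z := by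
    ext w
    simp only [mem_preimage, mem_singleton_iff, mem_range]
    rw [eq_comm, Cov.p_eq_iff]
    exact exists_congr fun k => eq_comm
  rw [push, h1, finsum_mem_range fun j k h => Cov.shift_injective h]

theorem push_toM (b : Cov hh → W) (z : Cov hh) :
    push (Cov.toM m) b (Cov.toM m z) = ∑ᶠ k : ℤ, b (Cov.shift (m * k) z) := by
  have h1 : Cov.toM m ⁻¹' {Cov.toM m z} = range fun k : ℤ => Cov.shift (m * k) z := by
    ext w
    simp only [mem_preimage, mem_singleton_iff, mem_range]
    rw [eq_comm, Cov.toM_eq_iff]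
    exact exists_congr fun k => eq_comm
  rw [push, h1, finsum_mem_range fun j k h => ?_]
  have := Cov.shift_injective h
  exact mul_left_cancel₀ (Int.natCast_ne_zero.2 (NeZero.ne m)) this

theorem push_pM (b : CovM hh m → W) (z : Cov hh) :
    push CovM.p b (Cov.p z) = ∑ k ∈ Finset.range m, b (Cov.toM m (Cov.shift k z)) := by
  classical
  have hm : 0 < (m : ℤ) := Int.natCast_pos.2 (NeZero.pos m)
  have hinj : Set.InjOn (fun k : ℕ => Cov.toM m (Cov.shift k z)) (Finset.range m) := by
    intro k hk l hl h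
    obtain ⟨i, hi⟩ := Cov.toM_eq_iff.1 h
    rw [← Cov.shift_add] at hi
    have h1 := Cov.shift_injective hi
    simp only [Finset.coe_range, mem_Iio] at hk hl
    have h2 : i = 0 := by
      rcases lt_trichotomy i 0 with h0 | h0 | h0
      · have : (m : ℤ) * i ≤ -m := by nlinarith
        omega
      · exact h0
      · have : (m : ℤ) ≤ m * i := by nlinarith
        omega
    rw [h2, mul_zero, zero_add] at h1
    exact_mod_cast h1.symm
  have h1 : (CovM.p ⁻¹' {Cov.p z} : Set (CovM hh m)) =
      ↑((Finset.range m).image fun k : ℕ => Cov.toM m (Cov.shift (k : ℤ) z)) := by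
    ext w
    simp only [mem_preimage, mem_singleton_iff, Finset.coe_image, Finset.coe_range, mem_image,
      mem_Iio]
    constructor
    · intro h
      obtain ⟨w', rfl⟩ := Cov.surjective_toM (h := hh) (m := m) w
      rw [Cov.p_toM] at h
      obtain ⟨j, rfl⟩ := Cov.p_eq_iff.1 h.symm
      refine ⟨(j % m).toNat, ?_, ?_⟩
      · have := Int.emod_lt_of_pos j hm
        have := Int.emod_nonneg j hm.ne'
        omega
      · refine Cov.toM_eq_iff.2 ⟨j / m, ?_⟩
        rw [← Cov.shift_add, Int.toNat_of_nonneg (Int.emod_nonneg j hm.ne'),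
          add_comm, Int.emod_add_mul_ediv]
    · rintro ⟨k, -, rfl⟩
      rw [Cov.p_toM, Cov.p_shift]
  rw [push, h1, finsum_mem_coe_finset, Finset.sum_image hinj]

end top

section int

variable {X : Type} [TopologicalSpace X] [T2Space X] [CompactSpace X] [ChartedSpace C2 X]
  [IsManifold 𝓘(ℂ, C2) ω X] {hh : C(X, UnitAddCircle)} {m : ℕ} [NeZero m]

/-- `∫_X B = ∫_{Cov} b` if `B ∘ p = ∑_k b ∘ shift k` -/
theorem intX_p {b : Cov hh → ℂ} (hr : Reg2 0 1 b) (hc : HasCompactSupport b) {B : X → ℂ}
    (hB : ∀ z, B (Cov.p z) = ∑ᶠ k : ℤ, b (Cov.shift k z)) : intX B = intX b := by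
  have h1 : B = push Cov.p b := by
    funext x
    obtain ⟨z, rfl⟩ := Cov.surjective_p (h := hh) x
    rw [hB, push_p]
  rw [h1]
  exact intX_push chartMap_p hr hc

/-- `∫_{CovM} B = ∫_{Cov} b` if `B ∘ toM m = ∑_k b ∘ shift (m k)` -/
theorem intX_toM {b : Cov hh → ℂ} (hr : Reg2 0 1 b) (hc : HasCompactSupport b)
    {B : CovM hh m → ℂ} (hB : ∀ z, B (Cov.toM m z) = ∑ᶠ k : ℤ, b (Cov.shift (m * k) z)) :
    intX B = intX b := by
  have h1 : B = push (Cov.toM m) b := by
    funext x
    obtain ⟨z, rfl⟩ := Cov.surjective_toM (h := hh) (m := m) x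
    rw [hB, push_toM]
  rw [h1]
  exact intX_push chartMap_toM hr hc

/-- `∫_X B = ∫_{CovM} b` if `B ∘ p = ∑_{k<m} b ∘ (deck transformation)^k` -/
theorem intX_pM {b : CovM hh m → ℂ} (hr : Reg2 0 1 b) {B : X → ℂ}
    (hB : ∀ z, B (Cov.p z) = ∑ k ∈ Finset.range m, b (Cov.toM m (Cov.shift k z))) :
    intX B = intX b := by
  have h1 : B = push CovM.p b := by
    funext x
    obtain ⟨z, rfl⟩ := Cov.surjective_p (h := hh) x
    rw [hB, push_pM]
  rw [h1]
  exact intX_push chartMap_pM hr (HasCompactSupport.of_compactSpace b)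

/-- `∫_{X_m} p^* b = m ∫_X b` -/
theorem intX_comp_pM {b : X → ℂ} (hr : Reg2 0 1 b) :
    intX (fun z : CovM hh m => b (CovM.p z)) = m * intX b := by
  have hr' : Reg2 0 1 fun z : CovM hh m => b (CovM.p z) := chartMap_pM.reg2_comp hr
  rw [← intX_pM hr' (B := (m : ℂ) • b) (fun z => by simp),
    intX_eq_intV (integrableX_of_reg hr (HasCompactSupport.of_compactSpace b))
      (HasCompactSupport.of_compactSpace b),
    intX_eq_intV ((integrableX_of_reg hr (HasCompactSupport.of_compactSpace b)).smul _)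
      (HasCompactSupport.of_compactSpace _), intV_smul, smul_eq_mul]

end int

section bij

variable {M N : Type*} [TopologicalSpace M] [ChartedSpace C2 M] [TopologicalSpace N]
  [ChartedSpace C2 N] [IsManifold 𝓘(ℂ, C2) ω M] [IsManifold 𝓘(ℂ, C2) ω N]
  [T2Space M] [SigmaCompactSpace M] [T2Space N] [SigmaCompactSpace N] {q : M → N}

theorem push_of_bijective {W : Type*} [AddCommMonoid W] {q : M → N} (hb : Bijective q)
    (b : N → W) : push q (fun x => b (q x)) = b := by
  funext y
  obtain ⟨x, rfl⟩ := hb.2 y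
  exact push_apply_of_injOn (U := univ) hb.1.injOn (fun x hx => absurd (mem_univ x) hx)
    (mem_univ x)

/-- the integral is invariant under biholomorphisms -/
theorem intX_comp_of_bijective (hq : ChartMap q) (hb : Bijective q) {b : N → ℂ}
    (hr : Reg2 0 1 b) (hc : HasCompactSupport fun x => b (q x)) :
    intX (fun x => b (q x)) = intX b := by
  rw [← intX_push hq (hq.reg2_comp hr) hc, push_of_bijective hb]

end bij

end Vale.Agent.P267.XT
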