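import Vale.Agent.P267.H622.Reg
import Vale.Agent.P267.H158.Inst

/-!
# P267 / XM-DESC (helper622): the projections between `Cov hh`, `CovM hh m`, `X` are `ChartMap`s;
descent along `Cov.toM m : Cov hh → CovM hh m` and `Cov.p : Cov hh → X`
-/

set_option linter.unusedVariables false
set_option linter.unusedSectionVars false

open scoped Manifold ContDiff ComplexConjugate Matrix ComplexOrder
open MeasureTheory Set Filter Topology

noncomputable section

namespace Vale.Agent.P267.XT

open FL H158

variable {X : Type} [TopologicalSpace X] [ChartedSpace C2 X] {hh : C(X, UnitAddCircle)}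
  {m : ℕ} [NeZero m]

theorem chartMap_p : ChartMap (Cov.p : Cov hh → X) :=
  ⟨Cov.continuous_p, fun z => Eventually.of_forall fun y =>
    (congrFun (Cov.chartAt_coe (H := C2) z) y).symm⟩

theorem chartMap_pM : ChartMap (CovM.p : CovM hh m → X) :=
  ⟨CovM.continuous_p, fun z => Eventually.of_forall fun y =>
    (congrFun (CovM.chartAt_coe (H := C2) z) y).symm⟩

theorem chartMap_toM : ChartMap (Cov.toM m : Cov hh → CovM hh m) :=
  ⟨Cov.continuous_toM, fun z => Eventually.of_forall fun y => by
    rw [CovM.chartAt_coe, Cov.chartAt_coe]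
    rfl⟩

theorem chartMap_shift (k : ℤ) : ChartMap (Cov.shift k : Cov hh → Cov hh) :=
  ⟨(Cov.shift k).continuous, fun z => Eventually.of_forall fun y => by
    rw [Cov.chartAt_coe, Cov.chartAt_coe]
    rfl⟩

theorem chartMap_tower {k n : ℕ} [NeZero n] (hn : n = m * k) :
    ChartMap (CovM.tower hn : CovM hh n → CovM hh m) :=
  ⟨CovM.continuous_tower hn, fun z => Eventually.of_forall fun y => by
    rw [CovM.chartAt_coe, CovM.chartAt_coe]
    rfl⟩

theorem chartMap_covOfM : ChartMap (Cov.covOfM m : Cov hh → Cov (CovM.cc hh m)) :=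
  ⟨(Cov.covOfM m).continuous, fun z => Eventually.of_forall fun y => by
    rw [Cov.chartAt_coe, CovM.chartAt_coe, Cov.chartAt_coe]
    rfl⟩

theorem chartMap_one : ChartMap (CovM.one hh : CovM hh 1 → X) := chartMap_pM

/-! ### the deck group of `CovM hh m` -/

theorem toC_one' : toC (1 : ℝ) = 0 := by simpa using toC_intCast 1

/-- the generator of the deck group of `CovM hh m → X`: `(x, z) ↦ (x, z + 1/m)` -/
def shiftM (m : ℕ) [NeZero m] : CovM hh m ≃ₜ CovM hh m where
  toFun z := CovM.mk (CovM.p z) (CovM.c z + toC (1 / m)) (by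
    rw [smul_add, CovM.nsmul_c, ← toC_nsmul, mul_one_div_cancel (Cov.natCast_ne_zero' m),
      toC_one', add_zero])
  invFun z := CovM.mk (CovM.p z) (CovM.c z - toC (1 / m)) (by
    rw [smul_sub, CovM.nsmul_c, ← toC_nsmul, mul_one_div_cancel (Cov.natCast_ne_zero' m),
      toC_one', sub_zero])
  left_inv z := CovM.ext rfl (by simp)
  right_inv z := CovM.ext rfl (by simp)
  continuous_toFun := CovM.continuous_iff.2
    ⟨CovM.continuous_p, CovM.continuous_c.add continuous_const⟩
  continuous_invFun := CovM.continuous_iff.2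
    ⟨CovM.continuous_p, CovM.continuous_c.sub continuous_const⟩

@[simp] theorem p_shiftM (z : CovM hh m) : CovM.p (shiftM m z) = CovM.p z := rfl

@[simp] theorem c_shiftM (z : CovM hh m) : CovM.c (shiftM m z) = CovM.c z + toC (1 / m) := rfl

theorem shiftM_toM (z : Cov hh) : shiftM m (Cov.toM m z) = Cov.toM m (Cov.shift 1 z) := by
  refine CovM.ext rfl ?_
  rw [c_shiftM, Cov.c_toM, Cov.c_toM, Cov.f_shift, Int.cast_one, add_div, toC_add]

theorem chartMap_shiftM : ChartMap (shiftM m : CovM hh m → CovM hh m) :=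
  ⟨(shiftM m).continuous, fun z => Eventually.of_forall fun y => by
    rw [CovM.chartAt_coe, CovM.chartAt_coe]
    rfl⟩

/-! ### descent -/

theorem shift_periodic {W : Type*} {u : Cov hh → W} {l : ℤ} (hu : ∀ z, u (Cov.shift l z) = u z)
    (k : ℤ) (z : Cov hh) : u (Cov.shift (l * k) z) = u z := by
  induction k with
  | zero => rw [mul_zero, Cov.shift_zero]
  | succ n ih => rw [mul_add, mul_one, add_comm, Cov.shift_add, hu, ih]
  | pred n ih =>
    rw [← hu (Cov.shift (l * (-(n : ℤ) - 1)) z), ← Cov.shift_add,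
      show l + l * (-(n : ℤ) - 1) = l * -(n : ℤ) by ring, ih]

theorem eq_of_p_eq {W : Type*} {u : Cov hh → W} (hu : ∀ z, u (Cov.shift 1 z) = u z) {z w : Cov hh}
    (h : Cov.p z = Cov.p w) : u z = u w := by
  obtain ⟨k, rfl⟩ := Cov.p_eq_iff.1 h
  rw [← shift_periodic hu k, one_mul]

theorem eq_of_toM_eq {W : Type*} {u : Cov hh → W} (hu : ∀ z, u (Cov.shift m z) = u z)
    {z w : Cov hh} (h : Cov.toM m z = Cov.toM m w) : u z = u w := by
  obtain ⟨k, rfl⟩ := Cov.toM_eq_iff.1 h
  rw [← shift_periodic hu k]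

/-- the object on `X` whose pullback is `u` -/
def dn {W : Type*} (u : Cov hh → W) : X → W := desc Cov.surjective_p u

theorem dn_p {W : Type*} {u : Cov hh → W} (hu : ∀ z, u (Cov.shift 1 z) = u z) (z : Cov hh) :
    dn u (Cov.p z) = u z := desc_apply _ (fun _ _ h => eq_of_p_eq hu h) z

variable (m) in
/-- the object on `CovM hh m` whose pullback is `u` -/
def dnM {W : Type*} (u : Cov hh → W) : CovM hh m → W := desc Cov.surjective_toM u

theorem dnM_toM {W : Type*} {u : Cov hh → W} (hu : ∀ z, u (Cov.shift m z) = u z) (z : Cov hh) :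
    dnM m u (Cov.toM m z) = u z := desc_apply _ (fun _ _ h => eq_of_toM_eq hu h) z

theorem dnM_unique {W : Type*} {u : Cov hh → W} {v : CovM hh m → W}
    (hv : ∀ z, v (Cov.toM m z) = u z) : dnM m u = v := by
  funext y
  obtain ⟨x, rfl⟩ := Cov.surjective_toM (h := hh) (m := m) y
  rw [hv]
  refine dnM_toM (fun z => ?_) x
  rw [← hv, ← hv]
  congr 1
  exact (Cov.toM_eq_iff.2 ⟨1, by simp⟩).symm

theorem toM_shift_m (z : Cov hh) : Cov.toM m (Cov.shift m z) = Cov.toM m z :=
  (Cov.toM_eq_iff.2 ⟨1, by simp⟩).symm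

end Vale.Agent.P267.XT
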