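import Vale.Agent.P267.H622.Twist
import Vale.Agent.P267.H877.Iface
import Vale.Agent.P267.H221.Out

/-!
# P267 / XM-DESC (helper622): equivariant objects on `Cov hh` = objects on `CovM hh m`

`f : Cov hh → ℝ` smooth with `f ∘ shift m = f + m`, `μ = exp (lam m)`. Objects `u` on `Cov hh` with
`u ∘ shift m = μ • u` correspond to objects `s` on `CovM hh m` by `u = exp (lam f) • (s ∘ toM m)`,
and `∂̄_a` corresponds to `∂̄` for the descended structure `a + lam ∂̄f`.
-/

set_option linter.unusedVariables false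
set_option linter.unusedSectionVars false

open scoped Manifold ContDiff ComplexConjugate Matrix ComplexOrder
open MeasureTheory Set Filter Topology

noncomputable section

namespace Vale.Agent.P267.XT

open FL H158

variable {X : Type} [TopologicalSpace X] [ChartedSpace C2 X] [IsManifold 𝓘(ℂ, C2) ω X]
  {hh : C(X, UnitAddCircle)} {m : ℕ} [NeZero m]
variable {ι : Type} [Fintype ι] [DecidableEq ι]


theorem sh_eq_shift {D : XTData (Cov hh)} (hD : D.γ = Cov.γ) (k : ℤ) (z : Cov hh) :
    D.sh k z = Cov.shift k z := by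
  revert k
  apply XTData.sh_induction
  · rw [D.sh_zero, Cov.shift_zero]
  · intro k hk
    rw [← D.γ_sh, hk, hD, Cov.γ, ← Cov.shift_add, add_comm]
  · intro k hk
    have h1 := D.γ_sh (k - 1) z
    rw [sub_add_cancel, hk, hD] at h1
    have h2 : Cov.shift (-1) (Cov.γ (D.sh (k - 1) z)) = D.sh (k - 1) z := Cov.shift_neg_shift 1 _
    rw [← h2, h1, ← Cov.shift_add]
    congr 2
    ring

section

variable {f : Cov hh → ℝ} (hf : Reg0 ∞ 0 fun z => (f z : ℂ))
  (hfm : ∀ z, f (Cov.shift m z) = f z + m) (lam : ℂ)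

include hfm in
theorem tw_shift (z : Cov hh) :
    tw lam f (Cov.shift m z) = Complex.exp (lam * m) * tw lam f z := by
  rw [tw, tw, hfm, ← Complex.exp_add]
  congr 1
  push_cast
  ring

/-- object on `Cov hh` defined by an object on `CovM hh m` -/
def up (m : ℕ) [NeZero m] (lam : ℂ) (f : Cov hh → ℝ) {W : Type*} [SMul ℂ W]
    (s : CovM hh m → W) (z : Cov hh) : W := tw lam f z • s (Cov.toM m z)

/-- object on `CovM hh m` defined by an equivariant object on `Cov hh` -/
def down (m : ℕ) [NeZero m] (lam : ℂ) (f : Cov hh → ℝ) {W : Type*} [SMul ℂ W]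
    (u : Cov hh → W) : CovM hh m → W := dnM m fun z => tw (-lam) f z • u z

section

variable {W : Type*} [AddCommGroup W] [Module ℂ W]

include hfm in
theorem down_toM {u : Cov hh → W} (hu : ∀ z, u (Cov.shift m z) = Complex.exp (lam * m) • u z)
    (z : Cov hh) : down m lam f u (Cov.toM m z) = tw (-lam) f z • u z := by
  refine dnM_toM (fun z => ?_) z
  rw [hu, tw_shift hfm, smul_smul, neg_mul, mul_comm (Complex.exp _), mul_assoc,
    ← Complex.exp_add, neg_add_cancel, Complex.exp_zero, mul_one]

include hfm in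
theorem up_down {u : Cov hh → W} (hu : ∀ z, u (Cov.shift m z) = Complex.exp (lam * m) • u z) :
    up m lam f (down m lam f u) = u := by
  funext z
  rw [up, down_toM hfm lam hu, smul_smul, mul_comm, tw_mul, one_smul]

theorem down_up (s : CovM hh m → W) : down m lam f (up m lam f s) = s := by
  refine dnM_unique fun z => ?_
  rw [up, smul_smul, tw_mul, one_smul]

include hfm in
theorem up_shift (s : CovM hh m → W) (z : Cov hh) :
    up m lam f s (Cov.shift m z) = Complex.exp (lam * m) • up m lam f s z := by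
  rw [up, up, tw_shift hfm, toM_shift_m, mul_smul]

theorem up_eq_zero_iff {s : CovM hh m → W} : (∀ z, up m lam f s z = 0) ↔ ∀ y, s y = 0 := by
  constructor
  · intro h y
    obtain ⟨z, rfl⟩ := Cov.surjective_toM (h := hh) (m := m) y
    exact (smul_eq_zero.1 (h z)).resolve_left (tw_ne_zero lam f z)
  · intro h z
    rw [up, h, smul_zero]

end

section reg

variable {V : Type*} [NormedAddCommGroup V] [NormedSpace ℂ V]

include hf

theorem reg0_up {κ : ℤ} {s : CovM hh m → V} : Reg0 ∞ κ (up m lam f s) ↔ Reg0 ∞ κ s := by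
  rw [← chartMap_toM.reg0_comp_iff Cov.surjective_toM (s := s)]
  constructor
  · intro h
    refine reg0_iff_at.2 fun z => ?_
    refine (((reg0_tw hf (-lam)).at z).smul (h.at z)).congr (Eventually.of_forall fun y => ?_)
    simp only [up]
    rw [smul_smul, tw_mul, one_smul]
  · intro h
    exact reg0_iff_at.2 fun z => ((reg0_tw hf lam).at z).smul (h.at z)

theorem reg1_up {κ : ℤ} {s : CovM hh m → Fin 2 → V} :
    Reg1 ∞ κ (up m lam f s) ↔ Reg1 ∞ κ s := by
  rw [← chartMap_toM.reg1_comp_iff Cov.surjective_toM (a := s)]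
  constructor
  · intro h
    refine reg1_iff_at.2 fun z => ?_
    refine (At1.smul ((reg0_tw hf (-lam)).at z) (h.at z)).congr
      (Eventually.of_forall fun y => ?_)
    funext i
    simp only [up, Pi.smul_apply]
    rw [smul_smul, tw_mul, one_smul]
  · intro h
    exact reg1_iff_at.2 fun z => At1.smul ((reg0_tw hf lam).at z) (h.at z)

theorem reg2_up {κ : ℤ} {s : CovM hh m → V} : Reg2 ∞ κ (up m lam f s) ↔ Reg2 ∞ κ s := by
  rw [← chartMap_toM.reg2_comp_iff Cov.surjective_toM (b := s)]
  constructor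
  · intro h
    refine reg2_iff_at.2 fun z => ?_
    refine (At2.smul ((reg0_tw hf (-lam)).at z) (h.at z)).congr (Eventually.of_forall fun y => ?_)
    simp only [up]
    rw [smul_smul, tw_mul, one_smul]
  · intro h
    exact reg2_iff_at.2 fun z => At2.smul ((reg0_tw hf lam).at z) (h.at z)

end reg

/-! ### line bundles -/

/-- the line bundle on `CovM hh m` defined by a periodic line bundle on `Cov hh` -/
def lbM (m : ℕ) [NeZero m] (L : LB (Cov hh) ι) (hP : ∀ z, L.P (Cov.shift m z) = L.P z) :
    LB (CovM hh m) ι :=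
  chartMap_toM.descLB Cov.surjective_toM L (dnM m L.P) fun z => (dnM_toM hP z).symm

variable {L : LB (Cov hh) ι} (hP : ∀ z, L.P (Cov.shift m z) = L.P z)

theorem lb_lbM : chartMap_toM.lb (lbM m L hP) = L := ChartMap.lb_descLB _ _ _ _ _

@[simp] theorem lbM_P (z : Cov hh) : (lbM m L hP).P (Cov.toM m z) = L.P z := dnM_toM hP z

/-- the descended holomorphic structure `a + lam ∂̄f` -/
def strM (m : ℕ) [NeZero m] (lam : ℂ) (f : Cov hh → ℝ) (a : Cov hh → Fin 2 → ℂ) :
    CovM hh m → Fin 2 → ℂ := dnM m (twa lam f a)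

variable {a : Cov hh → Fin 2 → ℂ} (ha : ∀ z, a (Cov.shift m z) = a z)

include hf hfm in
theorem dbarf_shift (z : Cov hh) : dbar0 0 (fun z => (f z : ℂ)) (Cov.shift m z) =
    dbar0 0 (fun z => (f z : ℂ)) z := by
  rw [← (chartMap_shift (hh := hh) (m : ℤ)).dbar0_comp]
  have h1 : (fun z : Cov hh => ((f (Cov.shift m z) : ℝ) : ℂ)) = fun z => (f z : ℂ) + (m : ℂ) := by
    funext z
    rw [hfm]
    push_cast
    rfl
  rw [h1, dbar0_add ((hf.at z).of_le (by exact_mod_cast le_top)) at0_const, dbar0_const, add_zero]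

include hf hfm ha in
theorem strM_toM (z : Cov hh) : strM m lam f a (Cov.toM m z) = twa lam f a z := by
  refine dnM_toM (fun z => ?_) z
  funext i
  rw [twa, twa, ha, dbarf_shift hf hfm]

include hf hfm ha in
theorem isHol_strM (h : L.IsHol a) : (lbM m L hP).IsHol (strM m lam f a) := by
  rw [← chartMap_toM.lb_isHol_iff Cov.surjective_toM, lb_lbM]
  have h1 : (fun z => strM m lam f a (Cov.toM m z)) = twa lam f a :=
    funext fun z => strM_toM hf hfm lam ha z
  rw [h1]
  exact isHol_twa hf lam h

theorem sec_up {s : CovM hh m → EuclideanSpace ℂ ι} : L.Sec (up m lam f s) ↔ (lbM m L hP).Sec s := by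
  rw [← chartMap_toM.lb_sec_iff Cov.surjective_toM, lb_lbM]
  refine forall_congr' fun z => ?_
  rw [up, act_smul']
  constructor
  · intro h
    have := congrArg (fun v => tw (-lam) f z • v) h
    simpa only [smul_smul, tw_mul, one_smul] using this
  · intro h
    rw [h]

theorem sec1_up {s : CovM hh m → Fin 2 → EuclideanSpace ℂ ι} :
    L.Sec1 (up m lam f s) ↔ (lbM m L hP).Sec1 s := by
  rw [← chartMap_toM.lb_sec1_iff Cov.surjective_toM, lb_lbM]
  refine forall_congr' fun z => forall_congr' fun i => ?_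
  rw [up, Pi.smul_apply, act_smul']
  constructor
  · intro h
    have := congrArg (fun v => tw (-lam) f z • v) h
    simpa only [smul_smul, tw_mul, one_smul] using this
  · intro h
    rw [h]

include hf hfm ha in
theorem db0_up {κ : ℤ} {s : CovM hh m → EuclideanSpace ℂ ι} (hs : Reg0 ∞ κ s) (hS : (lbM m L hP).Sec s)
    (z : Cov hh) (i : Fin 2) :
    L.db0 a κ (up m lam f s) z i =
      tw lam f z • (lbM m L hP).db0 (strM m lam f a) κ s (Cov.toM m z) i := by
  have h0 := chartMap_toM.reg0_comp hs
  have h1 : LB.act (L.P z) (s (Cov.toM m z)) = s (Cov.toM m z) := by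
    rw [← lbM_P hP z]; exact hS _
  have h2 := db0_tw lam hf (L := L) a ((h0.at z).of_le (by exact_mod_cast le_top)) h1 i
  rw [← chartMap_toM.lb_db0, lb_lbM]
  have h3 : (fun z => strM m lam f a (Cov.toM m z)) = twa lam f a :=
    funext fun z => strM_toM hf hfm lam ha z
  rw [h3]
  exact h2

include hf hfm ha in
theorem db1_up {κ : ℤ} {s : CovM hh m → Fin 2 → EuclideanSpace ℂ ι} (hs : Reg1 ∞ κ s)
    (hS : (lbM m L hP).Sec1 s) (z : Cov hh) :
    L.db1 a κ (up m lam f s) z =
      tw lam f z • (lbM m L hP).db1 (strM m lam f a) κ s (Cov.toM m z) := by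
  have h0 := chartMap_toM.reg1_comp hs
  have h1 : ∀ i, LB.act (L.P z) (s (Cov.toM m z) i) = s (Cov.toM m z) i := by
    intro i
    rw [← lbM_P hP z]; exact hS _ i
  have h2 := db1_tw lam hf (L := L) a ((h0.at z).of_le (by exact_mod_cast le_top)) h1
  rw [← chartMap_toM.lb_db1, lb_lbM]
  have h3 : (fun z => strM m lam f a (Cov.toM m z)) = twa lam f a :=
    funext fun z => strM_toM hf hfm lam ha z
  rw [h3]
  exact h2

end

end Vale.Agent.P267.XT
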