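import Vale.Agent.P267.H877.Trans

/-!
# P267 / XM-DESC (helper622): corresponding charts under a `ChartMap`

Extension of `H877/Trans.lean`: `ChRel q e e' x` says that the charts `e` of `M` and `e'` of `N`
correspond under `q` near `x`; then the components of `u ∘ q` in `e` are those of `u` in `e'`.
-/

set_option linter.unusedVariables false
set_option linter.unusedSectionVars false

open scoped Manifold ContDiff ComplexConjugate Matrix ComplexOrder
open MeasureTheory Set Filter Topology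

noncomputable section

namespace Vale.Agent.P267.XT

open FL

variable {M N : Type*} [TopologicalSpace M] [ChartedSpace C2 M] [TopologicalSpace N]
  [ChartedSpace C2 N]

/-- the charts `e` of `M` and `e'` of `N` correspond under `q` near `x` -/
structure ChRel (q : M → N) (e : Ch M) (e' : Ch N) (x : M) : Prop where
  src : x ∈ e.source
  src' : q x ∈ e'.source
  ev : ∀ᶠ y in 𝓝 x, e' (q y) = e y

namespace ChRel

variable {q : M → N} {e c : Ch M} {e' c' : Ch N} {x : M}

theorem apply (h : ChRel q e e' x) : e' (q x) = e x := h.ev.self_of_nhds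

theorem eventually (h : ChRel q e e' x) (hq : Continuous q) : ∀ᶠ y in 𝓝 x, ChRel q e e' y := by
  filter_upwards [e.open_source.mem_nhds h.src,
    hq.continuousAt.preimage_mem_nhds (e'.open_source.mem_nhds h.src'),
    h.ev.eventually_nhds] with y h1 h2 h3
  exact ⟨h1, h2, h3⟩

/-- the same in coordinates -/
theorem eventually' (h : ChRel q e e' x) (hq : Continuous q) :
    ∀ᶠ z in 𝓝 (e x), z ∈ e.target ∧ ChRel q e e' (e.symm z) := by
  have h1 : Tendsto e.symm (𝓝 (e x)) (𝓝 x) := by
    have := e.symm.continuousAt (x := e x) (e.map_source h.src)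
    rw [ContinuousAt, e.left_inv h.src] at this
    exact this
  filter_upwards [e.open_target.mem_nhds (e.map_source h.src),
    h1.eventually (h.eventually hq)] with z h2 h3
  exact ⟨h2, h3⟩

theorem symm_eq (h : ChRel q e e' x) {z : C2} (hz : z ∈ e.target) (hx : e.symm z = x) :
    e'.symm z = q (e.symm z) := by
  subst hx
  have h1 := h.apply
  rw [e.right_inv hz] at h1
  conv_lhs => rw [← h1]
  exact e'.left_inv h.src'

theorem symm_eventually (h : ChRel q e e' x) (hq : Continuous q) :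
    ∀ᶠ z in 𝓝 (e x), e'.symm z = q (e.symm z) := by
  filter_upwards [h.eventually' hq] with z hz
  exact hz.2.symm_eq hz.1 rfl

theorem jacM_eq (h : ChRel q e e' x) (h' : ChRel q c c' x) (hq : Continuous q) :
    jacM e' c' (q x) = jacM e c x := by
  ext p i
  rw [jacM, jacM, Matrix.of_apply, Matrix.of_apply, h.apply]
  refine dz_congr ?_ i
  have h1 : Tendsto e.symm (𝓝 (e x)) (𝓝 x) := by
    have := e.symm.continuousAt (x := e x) (e.map_source h.src)
    rw [ContinuousAt, e.left_inv h.src] at this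
    exact this
  filter_upwards [h.symm_eventually hq, h1.eventually h'.ev] with z h2 h3
  rw [h2, h3]

end ChRel

namespace ChartMap

variable {q : M → N} (hq : ChartMap q)
include hq

theorem chRel (x : M) : ChRel q (chartAt C2 x) (chartAt C2 (q x)) x :=
  ⟨mem_chart_source C2 x, mem_chart_source C2 (q x), hq.germ x⟩

theorem jac_eq_of {e : Ch M} {e' : Ch N} {x : M} (h : ChRel q e e' x) : jac e' (q x) = jac e x :=
  h.jacM_eq (hq.chRel x) hq.cont

variable {V : Type*} [NormedAddCommGroup V] [NormedSpace ℂ V]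

theorem loc0_eq (κ : ℤ) (s : N → V) {e : Ch M} {e' : Ch N} {x : M} (h : ChRel q e e' x) :
    loc0 κ e (fun y => s (q y)) (e x) = loc0 κ e' s (e x) := by
  rw [loc0, loc0, e.left_inv h.src, ← h.apply, e'.left_inv h.src', hq.jac_eq_of h]

theorem loc1_eq (κ : ℤ) (a : N → Fin 2 → V) {e : Ch M} {e' : Ch N} {x : M} (h : ChRel q e e' x) :
    loc1 κ e (fun y => a (q y)) (e x) = loc1 κ e' a (e x) := by
  funext i
  rw [loc1, loc1, e.left_inv h.src, ← h.apply, e'.left_inv h.src', hq.jac_eq_of h]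

theorem loc2_eq (κ : ℤ) (b : N → V) {e : Ch M} {e' : Ch N} {x : M} (h : ChRel q e e' x) :
    loc2 κ e (fun y => b (q y)) (e x) = loc2 κ e' b (e x) := by
  rw [loc2, loc2, e.left_inv h.src, ← h.apply, e'.left_inv h.src', hq.jac_eq_of h]

theorem loc10_eq (a : N → Fin 2 → V) {e : Ch M} {e' : Ch N} {x : M} (h : ChRel q e e' x) :
    loc10 e (fun y => a (q y)) (e x) = loc10 e' a (e x) := by
  funext i
  rw [loc10, loc10, e.left_inv h.src, ← h.apply, e'.left_inv h.src', hq.jac_eq_of h]

theorem loc11_eq (g : N → Matrix (Fin 2) (Fin 2) V) {e : Ch M} {e' : Ch N} {x : M}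
    (h : ChRel q e e' x) :
    loc11 e (fun y => g (q y)) (e x) = loc11 e' g (e x) := by
  ext i j
  rw [loc11, loc11, Matrix.of_apply, Matrix.of_apply, e.left_inv h.src, ← h.apply,
    e'.left_inv h.src', hq.jac_eq_of h]

theorem ev_of {W : Type*} {F : C2 → W} {G : C2 → W} {e : Ch M} {e' : Ch N} {x : M}
    (h : ChRel q e e' x) (H : ∀ y, ChRel q e e' y → F (e y) = G (e y)) : F =ᶠ[𝓝 (e x)] G := by
  filter_upwards [h.eventually' hq.cont] with z hz
  have := H _ hz.2
  rwa [e.right_inv hz.1] at this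

theorem loc0_ev (κ : ℤ) (s : N → V) {e : Ch M} {e' : Ch N} {x : M} (h : ChRel q e e' x) :
    loc0 κ e (fun y => s (q y)) =ᶠ[𝓝 (e x)] loc0 κ e' s :=
  hq.ev_of h fun _ hy => hq.loc0_eq κ s hy

theorem loc1_ev (κ : ℤ) (a : N → Fin 2 → V) {e : Ch M} {e' : Ch N} {x : M} (h : ChRel q e e' x) :
    loc1 κ e (fun y => a (q y)) =ᶠ[𝓝 (e x)] loc1 κ e' a :=
  hq.ev_of h fun _ hy => hq.loc1_eq κ a hy

theorem loc2_ev (κ : ℤ) (b : N → V) {e : Ch M} {e' : Ch N} {x : M} (h : ChRel q e e' x) :
    loc2 κ e (fun y => b (q y)) =ᶠ[𝓝 (e x)] loc2 κ e' b :=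
  hq.ev_of h fun _ hy => hq.loc2_eq κ b hy

theorem loc10_ev (a : N → Fin 2 → V) {e : Ch M} {e' : Ch N} {x : M} (h : ChRel q e e' x) :
    loc10 e (fun y => a (q y)) =ᶠ[𝓝 (e x)] loc10 e' a :=
  hq.ev_of h fun _ hy => hq.loc10_eq a hy

theorem loc11_ev (g : N → Matrix (Fin 2) (Fin 2) V) {e : Ch M} {e' : Ch N} {x : M}
    (h : ChRel q e e' x) :
    loc11 e (fun y => g (q y)) =ᶠ[𝓝 (e x)] loc11 e' g :=
  hq.ev_of h fun _ hy => hq.loc11_eq g hy

theorem isLocalHomeomorph : IsLocalHomeomorph q := by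
  refine IsLocalHomeomorph.mk q fun x => ?_
  have h := hq.chRel x
  obtain ⟨U, hU, hUo, hxU⟩ := eventually_nhds_iff.1 (h.eventually hq.cont)
  refine ⟨((chartAt C2 x).trans (chartAt C2 (q x)).symm).restrOpen U hUo, ?_, fun y hy => ?_⟩
  · rw [OpenPartialHomeomorph.restrOpen_source, OpenPartialHomeomorph.trans_source]
    refine ⟨⟨h.src, ?_⟩, hxU⟩
    rw [mem_preimage, OpenPartialHomeomorph.symm_source, ← h.apply]
    exact (chartAt C2 (q x)).map_source h.src'
  · have h1 := hU y hy.2
    change q y = (chartAt C2 (q x)).symm (chartAt C2 x y)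
    rw [← h1.apply, (chartAt C2 (q x)).left_inv h1.src']

end ChartMap

end Vale.Agent.P267.XT
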