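import Vale.Agent.P267.H622.Twist
import Vale.Agent.P267.H928.Int.FL

/-!
# P267 / XM-DESC (helper622): push-forward of compactly supported (2,2)-forms along `ChartMap`s

`push q b y = ∑_{x ∈ q⁻¹ y} b x`; `∫_N push q b = ∫_M b`.
-/

set_option linter.unusedVariables false
set_option linter.unusedSectionVars false

open scoped Manifold ContDiff ComplexConjugate Matrix ComplexOrder
open MeasureTheory Set Filter Topology Function

noncomputable section

namespace Vale.Agent.P267.XT

open FL Vale.Agent.P267.H928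

/-- sum over the fibres -/
def push {M N W : Type*} [AddCommMonoid W] (q : M → N) (b : M → W) (y : N) : W :=
  ∑ᶠ x ∈ q ⁻¹' {y}, b x

section top

variable {M N : Type*} [TopologicalSpace M] [TopologicalSpace N] [T2Space N] {q : M → N}
variable {W : Type*} [AddCommMonoid W]

theorem fib_finite (hq : IsLocalHomeomorph q) {K : Set M} (hK : IsCompact K) (y : N) :
    (q ⁻¹' {y} ∩ K).Finite := by
  have hc : IsCompact (q ⁻¹' {y} ∩ K) := hK.inter_left (isClosed_singleton.preimage hq.continuous)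
  have h : ∀ x : M, ∃ U ∈ 𝓝 x, InjOn q U := by
    intro x
    obtain ⟨e, hx, he⟩ := hq x
    refine ⟨e.source, e.open_source.mem_nhds hx, ?_⟩
    rw [he]
    exact e.injOn
  choose U hU hinj using h
  obtain ⟨t, -, ht⟩ := hc.elim_nhds_subcover U fun x _ => hU x
  refine Set.Finite.subset (s := ⋃ x ∈ t, (U x ∩ q ⁻¹' {y})) ?_ fun x hx => ?_
  · refine t.finite_toSet.biUnion fun x _ => ?_
    refine Set.Subsingleton.finite fun a ha b hb => ?_
    exact hinj x ha.1 hb.1 (ha.2.trans hb.2.symm)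
  · have := ht hx
    simp only [mem_iUnion] at this ⊢
    obtain ⟨i, hi, hxi⟩ := this
    exact ⟨i, hi, hxi, hx.1⟩

theorem push_eq_sum (hq : IsLocalHomeomorph q) {K : Set M} (hK : IsCompact K) {b : M → W}
    (hb : ∀ x ∉ K, b x = 0) (y : N) :
    push q b y = ∑ x ∈ (fib_finite hq hK y).toFinset, b x := by
  refine finsum_mem_eq_sum_of_inter_support_eq _ ?_
  ext x
  simp only [mem_inter_iff, mem_preimage, mem_singleton_iff, mem_support,
    Finite.coe_toFinset]
  constructor
  · rintro ⟨h1, h2⟩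
    exact ⟨⟨h1, by_contra fun h => h2 (hb x h)⟩, h2⟩
  · rintro ⟨h1, h2⟩
    exact ⟨h1.1, h2⟩

theorem push_sum (hq : IsLocalHomeomorph q) {K : Set M} (hK : IsCompact K) {κ : Type*}
    (s : Finset κ) {b : κ → M → W} (hb : ∀ i ∈ s, ∀ x ∉ K, b i x = 0) (y : N) :
    push q (∑ i ∈ s, b i) y = ∑ i ∈ s, push q (b i) y := by
  rw [push_eq_sum hq hK (fun x hx => by
    rw [Finset.sum_apply]
    exact Finset.sum_eq_zero fun i hi => hb i hi x hx)]
  simp only [Finset.sum_apply]
  rw [Finset.sum_comm]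
  exact Finset.sum_congr rfl fun i hi => (push_eq_sum hq hK (hb i hi) y).symm

theorem push_eq_zero {b : M → W} {y : N} (h : ∀ x, q x = y → b x = 0) : push q b y = 0 :=
  finsum_mem_eq_zero_of_forall_eq_zero fun x hx => h x hx

theorem push_apply_of_injOn {U : Set M} (hU : InjOn q U) {b : M → W} (hb : ∀ x ∉ U, b x = 0)
    {x : M} (hx : x ∈ U) : push q b (q x) = b x := by
  have h : push q b (q x) = ∑ᶠ z ∈ ({x} : Set M), b z := by
    refine finsum_mem_inter_support_eq' _ _ _ fun z hz => ?_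
    have hzU : z ∈ U := by_contra fun h => hz (hb z h)
    simp only [mem_preimage, mem_singleton_iff]
    exact ⟨fun h => hU hzU hx h, fun h => by rw [h]⟩
  rw [h, finsum_mem_singleton]

theorem hasCompactSupport_push (hq : Continuous q) {b : M → W} (hb : HasCompactSupport b) :
    HasCompactSupport (push q b) := by
  refine HasCompactSupport.intro (hb.isCompact.image hq) fun y hy => ?_
  refine push_eq_zero fun x hx => ?_
  by_contra h
  exact hy ⟨x, subset_tsupport _ h, hx⟩

end top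

section slice

variable {M N : Type*} [TopologicalSpace M] [ChartedSpace C2 M] [TopologicalSpace N]
  [ChartedSpace C2 N] {q : M → N}

/-- an open set on which the charts `e`, `e'` correspond under `q` -/
structure Slice (q : M → N) (e : Ch M) (e' : Ch N) (U : Set M) : Prop where
  op : IsOpen U
  rel : ∀ x ∈ U, ChRel q e e' x

theorem ChartMap.exists_slice (hq : ChartMap q) (x : M) :
    ∃ U, x ∈ U ∧ Slice q (chartAt C2 x) (chartAt C2 (q x)) U := by
  obtain ⟨U, hU, hUo, hxU⟩ := eventually_nhds_iff.1 ((hq.chRel x).eventually hq.cont)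
  exact ⟨U, hxU, hUo, hU⟩

namespace Slice

variable {e : Ch M} {e' : Ch N} {U : Set M} (h : Slice q e e' U)
include h

theorem injOn : InjOn q U := by
  intro x hx y hy hxy
  have h1 := (h.rel x hx).apply
  have h2 := (h.rel y hy).apply
  rw [← hxy, h1] at h2
  exact e.injOn (h.rel x hx).src (h.rel y hy).src h2

theorem subset : U ⊆ e.source := fun x hx => (h.rel x hx).src

variable [T2Space N] {V : Type*} [NormedAddCommGroup V] [NormedSpace ℂ V] {b : M → V}

theorem push_apply (hb : tsupport b ⊆ U) {x : M} (hx : x ∈ U) : push q b (q x) = b x :=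
  push_apply_of_injOn h.injOn (fun x hx => image_eq_zero_of_notMem_tsupport fun h => hx (hb h)) hx

theorem push_zero (hb : tsupport b ⊆ U) {y : N} (hy : y ∉ q '' tsupport b) : push q b y = 0 :=
  push_eq_zero fun x hx => image_eq_zero_of_notMem_tsupport fun h => hy ⟨x, h, hx⟩

variable [IsManifold 𝓘(ℂ, C2) ω M] [IsManifold 𝓘(ℂ, C2) ω N]

theorem reg2_push (hq : ChartMap q) {n : WithTop ℕ∞} {κ : ℤ} (hr : Reg2 n κ b)
    (hc : HasCompactSupport b) (hb : tsupport b ⊆ U) : Reg2 n κ (push q b) := by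
  refine reg2_iff_at.2 fun y => ?_
  by_cases hy : y ∈ q '' U
  · obtain ⟨x, hx, rfl⟩ := hy
    have h1 : At2 n κ (fun z => push q b (q z)) x := by
      refine (hr.at x).congr ?_
      filter_upwards [h.op.mem_nhds hx] with z hz
      exact h.push_apply hb hz
    rw [At2] at h1 ⊢
    rw [hq.apply_eq]
    exact h1.congr_of_eventuallyEq (hq.loc2_germ κ (push q b) x)
  · have h2 : IsClosed (q '' tsupport b) := (hc.isCompact.image hq.cont).isClosed
    have h3 : y ∉ q '' tsupport b := fun ⟨x, hx, hxy⟩ => hy ⟨x, hb hx, hxy⟩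
    have h4 : push q b =ᶠ[𝓝 y] fun _ => 0 := by
      filter_upwards [h2.isOpen_compl.mem_nhds h3] with z hz
      exact h.push_zero hb hz
    exact at2_zero.congr h4

variable [T2Space M] [SigmaCompactSpace M] [SigmaCompactSpace N]

theorem intV_push (he : e ∈ atlas C2 M) (he' : e' ∈ atlas C2 N) (hq : ChartMap q)
    (hr : Reg2 0 1 b) (hc : HasCompactSupport b) (hb : tsupport b ⊆ U) :
    intV (push q b) = intV b := by
  have hr' := h.reg2_push hq hr hc hb
  have hc' : HasCompactSupport (push q b) := hasCompactSupport_push hq.cont hc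
  have hU' : ∀ y ∉ e'.source, push q b y = 0 := by
    intro y hy
    refine push_eq_zero fun x hx => ?_
    by_contra h0
    have hxU : x ∈ U := hb (subset_tsupport _ h0)
    exact hy (hx ▸ (h.rel x hxU).src')
  have hU : ∀ y ∉ e.source, b y = 0 := by
    intro y hy
    by_contra h0
    exact hy (h.subset (hb (subset_tsupport _ h0)))
  rw [intV_chart he (integrableX_of_reg hr hc) hU, intV_chart he' (integrableX_of_reg hr' hc') hU']
  congr 1
  set S : Set C2 := e '' U
  have hSo : IsOpen S := e.isOpen_image_of_subset_source h.op h.subset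
  have hS1 : S ⊆ e.target := by
    rintro _ ⟨x, hx, rfl⟩
    exact e.map_source (h.subset hx)
  have hS2 : S ⊆ e'.target := by
    rintro _ ⟨x, hx, rfl⟩
    rw [← (h.rel x hx).apply]
    exact e'.map_source (h.rel x hx).src'
  rw [setIntegral_eq_of_subset_of_forall_sdiff_eq_zero e.open_target.measurableSet hS1,
    setIntegral_eq_of_subset_of_forall_sdiff_eq_zero e'.open_target.measurableSet hS2]
  · refine setIntegral_congr_fun hSo.measurableSet ?_
    rintro _ ⟨x, hx, rfl⟩
    have hr := h.rel x hx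
    change loc2 1 e' (push q b) (e x) = loc2 1 e b (e x)
    rw [← hq.loc2_eq 1 (push q b) hr, loc2, loc2, e.left_inv hr.src, h.push_apply hb hx]
  · rintro z ⟨hz, hzS⟩
    have h1 : push q b (e'.symm z) = 0 := by
      refine push_eq_zero fun x hx => ?_
      by_contra h0
      have hxU : x ∈ U := hb (subset_tsupport _ h0)
      refine hzS ⟨x, hxU, ?_⟩
      rw [← (h.rel x hxU).apply, hx, e'.right_inv hz]
    simp [loc2, h1]
  · rintro z ⟨hz, hzS⟩
    have h1 : b (e.symm z) = 0 := by
      by_contra h0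
      refine hzS ⟨e.symm z, hb (subset_tsupport _ h0), e.right_inv hz⟩
    simp [loc2, h1]

end Slice

end slice

/-! ### the general case -/

section general

variable {M N : Type*} [TopologicalSpace M] [ChartedSpace C2 M] [TopologicalSpace N]
  [ChartedSpace C2 N] [IsManifold 𝓘(ℂ, C2) ω M] [IsManifold 𝓘(ℂ, C2) ω N]
  [T2Space M] [SigmaCompactSpace M] [T2Space N] {q : M → N}
variable {V : Type*} [NormedAddCommGroup V] [NormedSpace ℂ V]

omit [T2Space M] [SigmaCompactSpace M] in
theorem reg0_of_contMDiff {ρ : M → ℝ} (h : ContMDiff 𝓘(ℝ, C2) 𝓘(ℝ) ∞ ρ) :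
    Reg0 ∞ 0 fun x => (ρ x : ℂ) := by
  haveI : IsManifold 𝓘(ℝ, C2) ∞ M := Int.isManifold_real
  intro e he z hz
  rw [LB.loc0_zero]
  have h1 := Int.Pou.contDiffAt_comp_symm h he hz
  exact (Complex.ofRealCLM.contDiff.contDiffAt.comp z h1).contDiffWithinAt

/-- decomposition of a compactly supported form into forms supported in slices -/
theorem exists_slices (hq : ChartMap q) {K : Set M} (hK : IsCompact K) :
    ∃ (t : Finset M) (U : M → Set M) (ρ : M → M → ℝ),
      (∀ p, Slice q (chartAt C2 p) (chartAt C2 (q p)) (U p)) ∧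
      (∀ p ∈ t, ContMDiff 𝓘(ℝ, C2) 𝓘(ℝ) ∞ (ρ p)) ∧ (∀ p ∈ t, tsupport (ρ p) ⊆ U p) ∧
      ∀ x ∈ K, ∑ p ∈ t, ρ p x = 1 := by
  classical
  haveI : IsManifold 𝓘(ℝ, C2) ∞ M := Int.isManifold_real
  choose U hxU hU using fun x => hq.exists_slice x
  obtain ⟨t, -, ht⟩ := hK.elim_nhds_subcover U fun x _ => (hU x).op.mem_nhds (hxU x)
  obtain ⟨f, hf⟩ := SmoothPartitionOfUnity.exists_isSubordinate 𝓘(ℝ, C2) hK.isClosed
    (fun p : t => U p) (fun p => (hU p).op) (by
      intro x hx
      have := ht hx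
      simp only [mem_iUnion] at this ⊢
      obtain ⟨i, hi, hxi⟩ := this
      exact ⟨⟨i, hi⟩, hxi⟩)
  refine ⟨t, U, fun p => if hp : p ∈ t then f ⟨p, hp⟩ else 0, hU, fun p hp => ?_, fun p hp => ?_,
    fun x hx => ?_⟩
  · beta_reduce
    rw [dif_pos hp]
    exact (f ⟨p, hp⟩).contMDiff
  · beta_reduce
    rw [dif_pos hp]
    exact hf ⟨p, hp⟩
  · have h1 := f.sum_eq_one hx
    rw [finsum_eq_sum_of_fintype] at h1
    rw [← h1, ← Finset.sum_coe_sort t]
    exact Finset.sum_congr rfl fun p _ => by simp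

theorem decomp (hq : ChartMap q) {b : M → V} (hc : HasCompactSupport b) :
    ∃ (t : Finset M) (U : M → Set M) (ρ : M → M → ℝ),
      (∀ p, Slice q (chartAt C2 p) (chartAt C2 (q p)) (U p)) ∧
      (∀ p ∈ t, Reg0 ∞ 0 fun x => (ρ p x : ℂ)) ∧
      (∀ p ∈ t, tsupport (fun x => (ρ p x : ℂ) • b x) ⊆ U p) ∧
      (∀ p ∈ t, HasCompactSupport fun x => (ρ p x : ℂ) • b x) ∧
      b = ∑ p ∈ t, fun x => (ρ p x : ℂ) • b x := by
  obtain ⟨t, U, ρ, h1, h2, h3, h4⟩ := exists_slices hq hc.isCompact
  refine ⟨t, U, ρ, h1, fun p hp => reg0_of_contMDiff (h2 p hp), fun p hp => ?_, fun p hp => ?_, ?_⟩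
  · refine subset_trans (closure_mono fun x hx => ?_) (h3 p hp)
    intro h0
    apply hx
    change (ρ p x : ℂ) • b x = 0
    rw [h0]
    simp
  · exact hc.smul_left
  · funext x
    rw [Finset.sum_apply]
    by_cases hx : x ∈ tsupport b
    · rw [← Finset.sum_smul]
      have := h4 x hx
      have h5 : (∑ p ∈ t, (ρ p x : ℂ)) = 1 := by
        rw [← Complex.ofReal_sum, this, Complex.ofReal_one]
      rw [h5, one_smul]
    · rw [image_eq_zero_of_notMem_tsupport hx]
      simp

omit [T2Space M] [SigmaCompactSpace M] in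
theorem Reg2.smul_of {n : WithTop ℕ∞} (hn : n ≤ ∞) {κ : ℤ} {ρ : M → ℂ} {b : M → V}
    (hρ : Reg0 ∞ 0 ρ) (hb : Reg2 n κ b) : Reg2 n κ fun x => ρ x • b x :=
  reg2_iff_at.2 fun x => At2.smul ((hρ.at x).of_le hn) (hb.at x)

omit [T2Space M] [SigmaCompactSpace M] in
theorem Reg2.sum {n : WithTop ℕ∞} {κ : ℤ} {ι : Type*} {s : Finset ι} {b : ι → M → V}
    (hb : ∀ i ∈ s, Reg2 n κ (b i)) : Reg2 n κ (∑ i ∈ s, b i) := by
  refine reg2_iff_at.2 fun x => ?_
  refine (At2.sum fun i hi => (hb i hi).at x).congr (Eventually.of_forall fun y => ?_)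
  simp

theorem push_decomp (hq : ChartMap q) {b : M → V} (hc : HasCompactSupport b) {t : Finset M}
    {ρ : M → M → ℝ} (h : b = ∑ p ∈ t, fun x => (ρ p x : ℂ) • b x) :
    push q b = ∑ p ∈ t, push q fun x => (ρ p x : ℂ) • b x := by
  funext y
  conv_lhs => rw [h]
  rw [push_sum hq.isLocalHomeomorph hc.isCompact t (fun i _ x hx => by
    rw [image_eq_zero_of_notMem_tsupport hx, smul_zero]), Finset.sum_apply]

theorem reg2_push (hq : ChartMap q) {n : WithTop ℕ∞} (hn : n ≤ ∞) {κ : ℤ} {b : M → V}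
    (hr : Reg2 n κ b) (hc : HasCompactSupport b) : Reg2 n κ (push q b) := by
  obtain ⟨t, U, ρ, h1, h2, h3, h4, h5⟩ := decomp hq hc
  rw [push_decomp hq hc h5]
  exact Reg2.sum fun p hp => (h1 p).reg2_push hq (Reg2.smul_of hn (h2 p hp) hr) (h4 p hp) (h3 p hp)

/-- **push-forward formula**: `∫_N q_* b = ∫_M b` -/
theorem intV_push [SigmaCompactSpace N] (hq : ChartMap q) {b : M → V} (hr : Reg2 0 1 b)
    (hc : HasCompactSupport b) : intV (push q b) = intV b := by
  obtain ⟨t, U, ρ, h1, h2, h3, h4, h5⟩ := decomp hq hc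
  have h6 : ∀ p ∈ t, Reg2 0 1 fun x => (ρ p x : ℂ) • b x := fun p hp =>
    Reg2.smul_of (by exact_mod_cast bot_le) (h2 p hp) hr
  have h7 : ∀ p ∈ t, Reg2 0 1 (push q fun x => (ρ p x : ℂ) • b x) := fun p hp =>
    (h1 p).reg2_push hq (h6 p hp) (h4 p hp) (h3 p hp)
  rw [push_decomp hq hc h5, intV_sum t fun p hp =>
    integrableX_of_reg (h7 p hp) (hasCompactSupport_push hq.cont (h4 p hp))]
  conv_rhs => rw [h5, intV_sum t fun p hp => integrableX_of_reg (h6 p hp) (h4 p hp)]
  exact Finset.sum_congr rfl fun p hp => (h1 p).intV_push (chart_mem_atlas C2 p)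
    (chart_mem_atlas C2 (q p)) hq (h6 p hp) (h4 p hp) (h3 p hp)

/-- **push-forward formula**: `∫_N q_* b = ∫_M b` -/
theorem intX_push [SigmaCompactSpace N] (hq : ChartMap q) {b : M → ℂ} (hr : Reg2 0 1 b)
    (hc : HasCompactSupport b) : intX (push q b) = intX b := by
  have hr' := reg2_push hq (by exact_mod_cast bot_le) hr hc
  have hc' := hasCompactSupport_push hq.cont hc
  rw [intX_eq_intV (integrableX_of_reg hr' hc') hc', intX_eq_intV (integrableX_of_reg hr hc) hc]
  exact intV_push hq hr hc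

end general

end Vale.Agent.P267.XT
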