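import Vale.Agent.P267.H622.CovInt
import Vale.Agent.P267.H622.Reg
import Vale.Agent.P267.H469.Del2

/-!
# P267 / XM-DESC (helper622): the push-forward commutes with the differential operators
-/

set_option linter.unusedVariables false
set_option linter.unusedSectionVars false

open scoped Manifold ContDiff ComplexConjugate Matrix ComplexOrder
open MeasureTheory Set Filter Topology Function

noncomputable section

namespace Vale.Agent.P267.XT

open FL Vale.Agent.P267.H928

/-! ### local description of the push-forward -/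

section top

variable {M N : Type*} [TopologicalSpace M] [TopologicalSpace N] [T2Space M] [T2Space N] {q : M → N}

/-- local inverses of a local homeomorphism at the points of a fibre in a compact set -/
theorem exists_sections (hq : IsLocalHomeomorph q) {K : Set M} (hK : IsCompact K) (y₀ : N) :
    ∃ σ : M → N → M, (∀ x, q x = y₀ → ∀ᶠ z in 𝓝 x, σ x (q z) = z) ∧
      ∀ᶠ y in 𝓝 y₀, Set.InjOn (fun x => σ x y) (fib_finite hq hK y₀).toFinset ∧
        (∀ x ∈ (fib_finite hq hK y₀).toFinset, q (σ x y) = y) ∧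
        ∀ w ∈ K, q w = y → ∃ x ∈ (fib_finite hq hK y₀).toFinset, σ x y = w := by
  classical
  set S := (fib_finite hq hK y₀).toFinset with hS
  have hSf : ∀ x ∈ S, q x = y₀ := fun x hx => ((fib_finite hq hK y₀).mem_toFinset.1 hx).1
  choose e he1 he2 using fun x => hq x
  -- disjoint neighbourhoods
  obtain ⟨U, hU1, hU2⟩ := S.finite_toSet.t2_separation
  have hO : ∀ x : M, IsOpen ((e x).source ∩ U x) := fun x => (e x).open_source.inter (hU1 x).2
  refine ⟨fun x => (e x).symm, fun x hx => ?_, ?_⟩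
  · filter_upwards [(e x).open_source.mem_nhds (he1 x)] with z hz
    rw [he2 x]
    exact (e x).left_inv hz
  have h1 : ∀ᶠ y in 𝓝 y₀, ∀ x ∈ S, y ∈ (e x) '' ((e x).source ∩ U x) := by
    rw [Filter.eventually_all_finset]
    intro x hx
    have h2 : IsOpen ((e x) '' ((e x).source ∩ U x)) :=
      (e x).isOpen_image_of_subset_source (hO x) inter_subset_left
    refine h2.mem_nhds ⟨x, ⟨he1 x, (hU1 x).1⟩, ?_⟩
    rw [← he2 x]
    exact hSf x hx
  have h3 : IsClosed (q '' (K \ ⋃ x ∈ S, ((e x).source ∩ U x))) := by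
    refine (IsCompact.image ?_ hq.continuous).isClosed
    exact hK.diff (isOpen_biUnion fun x _ => hO x)
  have h4 : y₀ ∉ q '' (K \ ⋃ x ∈ S, ((e x).source ∩ U x)) := by
    rintro ⟨w, hw, hwy⟩
    apply hw.2
    have hwS : w ∈ S := (fib_finite hq hK y₀).mem_toFinset.2 ⟨hwy, hw.1⟩
    simp only [mem_iUnion]
    exact ⟨w, hwS, he1 w, (hU1 w).1⟩
  filter_upwards [h1, h3.isOpen_compl.mem_nhds h4] with y hy hy'
  have h5 : ∀ x ∈ S, (e x).symm y ∈ (e x).source ∩ U x ∧ e x ((e x).symm y) = y := by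
    intro x hx
    obtain ⟨w, hw, rfl⟩ := hy x hx
    rw [(e x).left_inv hw.1]
    exact ⟨hw, rfl⟩
  refine ⟨fun x hx x' hx' hxx => ?_, fun x hx => ?_, fun w hw hwy => ?_⟩
  · by_contra hne
    have h6 := hU2 hx hx' hne
    have h7 := (h5 x hx).1.2
    have h8 := (h5 x' hx').1.2
    simp only at hxx
    rw [← hxx] at h8
    exact Set.disjoint_left.1 h6 h7 h8
  · rw [he2 x]
    exact (h5 x hx).2
  · have h6 : w ∈ ⋃ x ∈ S, ((e x).source ∩ U x) := by
      by_contra h
      exact hy' ⟨w, ⟨hw, h⟩, hwy⟩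
    simp only [mem_iUnion] at h6
    obtain ⟨x, hx, hwx⟩ := h6
    refine ⟨x, hx, ?_⟩
    rw [← hwy, he2 x]
    exact (e x).left_inv hwx.1

/-- near `y₀` the push-forward is a finite sum over local inverses -/
theorem push_germ (hq : IsLocalHomeomorph q) {K : Set M} (hK : IsCompact K) (y₀ : N) :
    ∃ (S : Finset M) (σ : M → N → M), (∀ x ∈ S, q x = y₀ ∧ ∀ᶠ z in 𝓝 x, σ x (q z) = z) ∧
      (∀ᶠ y in 𝓝 y₀, Set.InjOn (fun x => σ x y) S ∧ (∀ x ∈ S, q (σ x y) = y) ∧
        ∀ w ∈ K, q w = y → ∃ x ∈ S, σ x y = w) := by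
  obtain ⟨σ, h1, h2⟩ := exists_sections hq hK y₀
  exact ⟨(fib_finite hq hK y₀).toFinset, σ, fun x hx =>
    ⟨((fib_finite hq hK y₀).mem_toFinset.1 hx).1,
      h1 x ((fib_finite hq hK y₀).mem_toFinset.1 hx).1⟩, h2⟩

variable {W : Type*} [AddCommMonoid W]

theorem push_eq_of_germ {K : Set M} {S : Finset M} {σ : M → N → M} {y : N}
    (h : Set.InjOn (fun x => σ x y) S ∧ (∀ x ∈ S, q (σ x y) = y) ∧
        ∀ w ∈ K, q w = y → ∃ x ∈ S, σ x y = w) {b : M → W} (hb : ∀ x ∉ K, b x = 0) :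
    push q b y = ∑ x ∈ S, b (σ x y) := by
  classical
  have h1 : push q b y = ∑ w ∈ S.image fun x => σ x y, b w := by
    refine finsum_mem_eq_sum_of_inter_support_eq _ ?_
    ext w
    simp only [mem_inter_iff, mem_preimage, mem_singleton_iff, mem_support, Finset.coe_image,
      mem_image, Finset.mem_coe]
    constructor
    · rintro ⟨h3, h4⟩
      have hwK : w ∈ K := by_contra fun h => h4 (hb w h)
      exact ⟨h.2.2 w hwK h3, h4⟩
    · rintro ⟨⟨x, hx, rfl⟩, h4⟩
      exact ⟨h.2.1 x hx, h4⟩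
  rw [h1, Finset.sum_image h.1]

end top

/-! ### operators -/

section op

variable {M N : Type*} [TopologicalSpace M] [ChartedSpace C2 M] [TopologicalSpace N]
  [ChartedSpace C2 N] [T2Space M] [T2Space N] {q : M → N}
variable {V W : Type*} [AddCommMonoid V] [AddCommMonoid W]

/-- natural local additive operators commute with the push-forward -/
theorem push_op (hq : ChartMap q) {PM : (M → V) → M → W} {PN : (N → V) → N → W}
    {GM : (M → V) → M → Prop} {GN : (N → V) → N → Prop}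
    (hGM : ∀ c c' x, GM c x → c' =ᶠ[𝓝 x] c → GM c' x)
    (hGG : ∀ c x, GM (fun z => c (q z)) x → GN c (q x))
    (hPM : ∀ c c' x, c =ᶠ[𝓝 x] c' → PM c x = PM c' x)
    (hPN : ∀ c c' y, c =ᶠ[𝓝 y] c' → PN c y = PN c' y)
    (hPP : ∀ c x, PM (fun z => c (q z)) x = PN c (q x))
    (hP0 : ∀ x, PM (fun _ => 0) x = 0)
    (hsum : ∀ (S : Finset M) (c : M → N → V) y, (∀ i ∈ S, GN (c i) y) →
      PN (fun z => ∑ i ∈ S, c i z) y = ∑ i ∈ S, PN (c i) y)
    {b : M → V} (hb : HasCompactSupport b) (hr : ∀ x, GM b x) (y : N) :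
    PN (push q b) y = push q (PM b) y := by
  obtain ⟨S, σ, h1, h2⟩ := push_germ hq.isLocalHomeomorph hb.isCompact y
  have hb0 : ∀ x ∉ tsupport b, b x = 0 := fun x hx => image_eq_zero_of_notMem_tsupport hx
  have hP0' : ∀ x ∉ tsupport b, PM b x = 0 := fun x hx => by
    rw [← hP0 x]
    refine hPM _ _ _ ?_
    filter_upwards [(isClosed_tsupport b).isOpen_compl.mem_nhds hx] with z hz
    exact hb0 z hz
  have h3 : push q b =ᶠ[𝓝 y] fun z => ∑ x ∈ S, b (σ x z) := by
    filter_upwards [h2] with z hz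
    exact push_eq_of_germ hz hb0
  have h5 : ∀ x ∈ S, (fun z => b (σ x (q z))) =ᶠ[𝓝 x] b := by
    intro x hx
    filter_upwards [(h1 x hx).2] with z hz
    rw [hz]
  rw [hPN _ _ _ h3, hsum S (fun x z => b (σ x z)) y (fun x hx => by
    have := hGG (fun z => b (σ x z)) x (hGM _ _ _ (hr x) (h5 x hx))
    rwa [(h1 x hx).1] at this), push_eq_of_germ h2.self_of_nhds hP0']
  refine Finset.sum_congr rfl fun x hx => ?_
  have h6 : σ x y = x := by
    have := (h1 x hx).2.self_of_nhds
    rwa [(h1 x hx).1] at this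
  have h7 := hPP (fun z => b (σ x z)) x
  rw [(h1 x hx).1] at h7
  rw [h6, ← h7]
  exact hPM _ _ _ (h5 x hx)

/-- pointwise regularity of the push-forward -/
theorem push_reg (hq : ChartMap q) {GM : (M → V) → M → Prop} {GN : (N → V) → N → Prop}
    (hGM : ∀ c c' x, GM c x → c' =ᶠ[𝓝 x] c → GM c' x)
    (hGN : ∀ c c' x, GN c x → c' =ᶠ[𝓝 x] c → GN c' x)
    (hGG : ∀ c x, GM (fun z => c (q z)) x → GN c (q x))
    (hsum : ∀ (S : Finset M) (c : M → N → V) y, (∀ i ∈ S, GN (c i) y) →
      GN (fun z => ∑ i ∈ S, c i z) y)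
    {b : M → V} (hb : HasCompactSupport b) (hr : ∀ x, GM b x) (y : N) :
    GN (push q b) y := by
  obtain ⟨S, σ, h1, h2⟩ := push_germ hq.isLocalHomeomorph hb.isCompact y
  have hb0 : ∀ x ∉ tsupport b, b x = 0 := fun x hx => image_eq_zero_of_notMem_tsupport hx
  have h3 : push q b =ᶠ[𝓝 y] fun z => ∑ x ∈ S, b (σ x z) := by
    filter_upwards [h2] with z hz
    exact push_eq_of_germ hz hb0
  have h5 : ∀ x ∈ S, (fun z => b (σ x (q z))) =ᶠ[𝓝 x] b := by
    intro x hx
    filter_upwards [(h1 x hx).2] with z hz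
    rw [hz]
  refine hGN _ _ _ (hsum S (fun x z => b (σ x z)) y fun x hx => ?_) h3
  have := hGG (fun z => b (σ x z)) x (hGM _ _ _ (hr x) (h5 x hx))
  rwa [(h1 x hx).1] at this

/-- pointwise multiplication with something pulled back: `q_*(b · (g ∘ q)) = (q_* b) · g` -/
theorem push_bilin (hq : IsLocalHomeomorph q) {V' : Type*} {b : M → V} (hb : HasCompactSupport b)
    (g : N → V') (B : V → V' → W) (hB0 : ∀ v, B 0 v = 0)
    (hB : ∀ (S : Finset M) (u : M → V) v, B (∑ i ∈ S, u i) v = ∑ i ∈ S, B (u i) v) (y : N) :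
    push q (fun x => B (b x) (g (q x))) y = B (push q b y) (g y) := by
  have hb0 : ∀ x ∉ tsupport b, b x = 0 := fun x hx => image_eq_zero_of_notMem_tsupport hx
  rw [push_eq_sum hq hb.isCompact hb0, push_eq_sum hq hb.isCompact
    (b := fun x => B (b x) (g (q x))) (fun x hx => by simp only [hb0 x hx, hB0]), hB]
  refine Finset.sum_congr rfl fun x hx => ?_
  have h1 := ((fib_finite hq hb.isCompact y).mem_toFinset.1 hx).1
  have h2 : q x = y := h1
  rw [h2]

end op

end Vale.Agent.P267.XT
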