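import Vale.Agent.P267.H622.PushD
import Vale.Agent.P267.H469.Inst

/-!
# P267 / XM-DESC (helper622): push-forward of forms
-/

set_option linter.unusedVariables false
set_option linter.unusedSectionVars false

open scoped Manifold ContDiff ComplexConjugate Matrix ComplexOrder
open MeasureTheory Set Filter Topology Function

noncomputable section

namespace Vale.Agent.P267.XT

open FL Vale.Agent.P267.H928
open Vale.Agent.P267.H469 (del11 cj0 cj1 cj11 cjF)

/-! ### (1,0)- and (1,1)-forms at a point -/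

section g

variable {X : Type*} [TopologicalSpace X] [ChartedSpace C2 X]
variable {V : Type*} [NormedAddCommGroup V] [NormedSpace ℂ V]

/-- class `C^n` at a point -/
def G10 (n : WithTop ℕ∞) (c : X → Fin 2 → V) (x : X) : Prop :=
  ContDiffAt ℝ n (loc10 (chartAt C2 x) c) (chartAt C2 x x)

/-- class `C^n` at a point -/
def G11 (n : WithTop ℕ∞) (g : X → Matrix (Fin 2) (Fin 2) V) (x : X) : Prop :=
  ∀ i j, ContDiffAt ℝ n (fun z => loc11 (chartAt C2 x) g z i j) (chartAt C2 x x)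

theorem loc10_congr {e : Ch X} {x : X} (hx : x ∈ e.source) {s t : X → Fin 2 → V}
    (h : s =ᶠ[𝓝 x] t) : loc10 e s =ᶠ[𝓝 (e x)] loc10 e t := by
  filter_upwards [(tendsto_symm_nhds hx).eventually h] with z hz
  funext i
  simp only [loc10, hz]

theorem loc11_congr {e : Ch X} {x : X} (hx : x ∈ e.source) {s t : X → Matrix (Fin 2) (Fin 2) V}
    (h : s =ᶠ[𝓝 x] t) : loc11 e s =ᶠ[𝓝 (e x)] loc11 e t := by
  filter_upwards [(tendsto_symm_nhds hx).eventually h] with z hz
  simp only [loc11, hz]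

theorem G10.congr {n : WithTop ℕ∞} {s t : X → Fin 2 → V} {x : X} (h : G10 n s x)
    (hst : t =ᶠ[𝓝 x] s) : G10 n t x :=
  ContDiffAt.congr_of_eventuallyEq h (loc10_congr (mem_chart_source C2 x) hst)

theorem G11.congr {n : WithTop ℕ∞} {s t : X → Matrix (Fin 2) (Fin 2) V} {x : X} (h : G11 n s x)
    (hst : t =ᶠ[𝓝 x] s) : G11 n t x := fun i j =>
  ContDiffAt.congr_of_eventuallyEq (h i j)
    ((loc11_congr (mem_chart_source C2 x) hst).mono fun z hz => by simp only [hz])

theorem loc10_sum {ι : Type*} {S : Finset ι} {s : ι → X → Fin 2 → V} {e : Ch X} (z : C2) :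
    loc10 e (fun y => ∑ i ∈ S, s i y) z = ∑ i ∈ S, loc10 e (s i) z := by
  funext k
  simp only [loc10, Finset.sum_apply, Finset.smul_sum]
  rw [Finset.sum_comm]

theorem loc11_sum {ι : Type*} {S : Finset ι} {s : ι → X → Matrix (Fin 2) (Fin 2) V} {e : Ch X}
    (z : C2) : loc11 e (fun y => ∑ i ∈ S, s i y) z = ∑ i ∈ S, loc11 e (s i) z := by
  ext k l
  simp only [loc11, Matrix.sum_apply, Matrix.of_apply, Finset.smul_sum, Fin.sum_univ_two,
    Finset.sum_add_distrib]

theorem G10.sum {n : WithTop ℕ∞} {ι : Type*} {S : Finset ι} {s : ι → X → Fin 2 → V} {x : X}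
    (hs : ∀ i ∈ S, G10 n (s i) x) : G10 n (fun y => ∑ i ∈ S, s i y) x := by
  have h : loc10 (chartAt C2 x) (fun y => ∑ i ∈ S, s i y) =
      fun z => ∑ i ∈ S, loc10 (chartAt C2 x) (s i) z := funext fun z => loc10_sum z
  rw [G10, h]
  exact ContDiffAt.sum hs

theorem G11.sum {n : WithTop ℕ∞} {ι : Type*} {S : Finset ι}
    {s : ι → X → Matrix (Fin 2) (Fin 2) V} {x : X}
    (hs : ∀ i ∈ S, G11 n (s i) x) : G11 n (fun y => ∑ i ∈ S, s i y) x := by
  intro k l
  have h : (fun z => loc11 (chartAt C2 x) (fun y => ∑ i ∈ S, s i y) z k l) =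
      fun z => ∑ i ∈ S, loc11 (chartAt C2 x) (s i) z k l := funext fun z => by
    rw [loc11_sum, Matrix.sum_apply]
  rw [h]
  exact ContDiffAt.sum fun i hi => hs i hi k l

theorem G10.diff {n : WithTop ℕ∞} {s : X → Fin 2 → V} {x : X} (hs : G10 n s x) (hn : 1 ≤ n)
    (k : Fin 2) : DifferentiableAt ℝ (fun z => loc10 (chartAt C2 x) s z k) (chartAt C2 x x) :=
  (contDiffAt_pi.1 hs k).differentiableAt (by
    intro h; rw [h] at hn; simp at hn)

theorem G11.diff {n : WithTop ℕ∞} {s : X → Matrix (Fin 2) (Fin 2) V} {x : X} (hs : G11 n s x)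
    (hn : 1 ≤ n) (k l : Fin 2) :
    DifferentiableAt ℝ (fun z => loc11 (chartAt C2 x) s z k l) (chartAt C2 x x) :=
  (hs k l).differentiableAt (by
    intro h; rw [h] at hn; simp at hn)

theorem del11_congr {g g' : X → Matrix (Fin 2) (Fin 2) ℂ} {x : X} (h : g =ᶠ[𝓝 x] g') :
    del11 g x = del11 g' x := by
  have h1 := loc11_congr (mem_chart_source C2 x) h
  have h2 : ∀ i j, (fun z => loc11 (chartAt C2 x) g z i j) =ᶠ[𝓝 (chartAt C2 x x)]
      fun z => loc11 (chartAt C2 x) g' z i j := fun i j => h1.mono fun z hz => by simp only [hz]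
  funext j
  rw [del11, del11, dz_congr (h2 1 j), dz_congr (h2 0 j)]

theorem del1_congr {a a' : X → Fin 2 → V} {x : X} (h : a =ᶠ[𝓝 x] a') :
    del1 a x = del1 a' x := by
  have h1 := loc1_congr (κ := 0) (mem_chart_source C2 x) h
  ext i j
  rw [del1, del1, Matrix.of_apply, Matrix.of_apply]
  exact dz_congr (h1.mono fun z hz => by simp only [hz]) i

theorem dbar10_congr {a a' : X → Fin 2 → V} {x : X} (h : a =ᶠ[𝓝 x] a') :
    dbar10 a x = dbar10 a' x := by
  have h1 := loc10_congr (mem_chart_source C2 x) h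
  ext i j
  rw [dbar10, dbar10, Matrix.of_apply, Matrix.of_apply]
  congr 1
  exact dzb_congr (h1.mono fun z hz => by simp only [hz]) j

theorem del10_congr {a a' : X → Fin 2 → ℂ} {x : X} (h : a =ᶠ[𝓝 x] a') :
    del10 a x = del10 a' x := by
  have h1 := loc10_congr (mem_chart_source C2 x) h
  rw [del10, del10]
  congr 1
  · exact dz_congr (h1.mono fun z hz => by simp only [hz]) 0
  · exact dz_congr (h1.mono fun z hz => by simp only [hz]) 1

theorem del0_congr {s t : X → V} {x : X} (h : s =ᶠ[𝓝 x] t) : del0 s x = del0 t x := by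
  funext i
  rw [del0, del0]
  refine dz_congr ?_ i
  filter_upwards [(tendsto_symm_nhds (mem_chart_source C2 x)).eventually h] with z hz using hz

theorem del11_sum {ι : Type*} {S : Finset ι} {s : ι → X → Matrix (Fin 2) (Fin 2) ℂ} {x : X}
    (hs : ∀ i ∈ S, G11 1 (s i) x) :
    del11 (fun y => ∑ i ∈ S, s i y) x = ∑ i ∈ S, del11 (s i) x := by
  have h : ∀ k l, (fun z => loc11 (chartAt C2 x) (fun y => ∑ i ∈ S, s i y) z k l) =
      fun z => ∑ i ∈ S, loc11 (chartAt C2 x) (s i) z k l := fun k l => funext fun z => by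
    rw [loc11_sum, Matrix.sum_apply]
  funext j
  rw [del11, h, h, dz_sum S fun i hi => (hs i hi).diff le_rfl 1 j,
    dz_sum S fun i hi => (hs i hi).diff le_rfl 0 j, Finset.sum_apply, ← Finset.sum_sub_distrib]
  rfl

theorem del1_sum {ι : Type*} {S : Finset ι} {s : ι → X → Fin 2 → V} {x : X}
    (hs : ∀ i ∈ S, At1 1 0 (s i) x) :
    del1 (fun y => ∑ i ∈ S, s i y) x = ∑ i ∈ S, del1 (s i) x := by
  have h : ∀ l, (fun z => loc1 0 (chartAt C2 x) (fun y => ∑ i ∈ S, s i y) z l) =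
      fun z => ∑ i ∈ S, loc1 0 (chartAt C2 x) (s i) z l := fun l => funext fun z => by
    simp only [loc1, Finset.sum_apply, Finset.smul_sum]
    rw [Finset.sum_comm]
  ext k l
  rw [del1, Matrix.of_apply, h, dz_sum S fun i hi => (hs i hi).diff' le_rfl l, Matrix.sum_apply]
  rfl

theorem del0_sum {ι : Type*} {S : Finset ι} {s : ι → X → V} {x : X}
    (hs : ∀ i ∈ S, At0 1 0 (s i) x) :
    del0 (fun y => ∑ i ∈ S, s i y) x = ∑ i ∈ S, del0 (s i) x := by
  funext k
  rw [del0, dz_sum S fun i hi => ?_, Finset.sum_apply]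
  · rfl
  · have := (hs i hi).diff le_rfl
    rwa [LB.loc0_zero] at this

theorem dbar10_sum {ι : Type*} {S : Finset ι} {s : ι → X → Fin 2 → V} {x : X}
    (hs : ∀ i ∈ S, G10 1 (s i) x) :
    dbar10 (fun y => ∑ i ∈ S, s i y) x = ∑ i ∈ S, dbar10 (s i) x := by
  have h : ∀ l, (fun z => loc10 (chartAt C2 x) (fun y => ∑ i ∈ S, s i y) z l) =
      fun z => ∑ i ∈ S, loc10 (chartAt C2 x) (s i) z l := fun l => funext fun z => by
    rw [loc10_sum, Finset.sum_apply]
  ext k l
  rw [dbar10, Matrix.of_apply, h, dzb_sum S fun i hi => (hs i hi).diff le_rfl k, Matrix.sum_apply,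
    ← Finset.sum_neg_distrib]
  rfl

theorem del10_sum {ι : Type*} {S : Finset ι} {s : ι → X → Fin 2 → ℂ} {x : X}
    (hs : ∀ i ∈ S, G10 1 (s i) x) :
    del10 (fun y => ∑ i ∈ S, s i y) x = ∑ i ∈ S, del10 (s i) x := by
  have h : ∀ l, (fun z => loc10 (chartAt C2 x) (fun y => ∑ i ∈ S, s i y) z l) =
      fun z => ∑ i ∈ S, loc10 (chartAt C2 x) (s i) z l := fun l => funext fun z => by
    rw [loc10_sum, Finset.sum_apply]
  rw [del10, h, h, dz_sum S fun i hi => (hs i hi).diff le_rfl 1,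
    dz_sum S fun i hi => (hs i hi).diff le_rfl 0, ← Finset.sum_sub_distrib]
  rfl

end g

section push

variable {M N : Type*} [TopologicalSpace M] [ChartedSpace C2 M] [TopologicalSpace N]
  [ChartedSpace C2 N] [IsManifold 𝓘(ℂ, C2) ω M] [IsManifold 𝓘(ℂ, C2) ω N]
  {q : M → N} {V : Type*} [NormedAddCommGroup V] [NormedSpace ℂ V]

namespace ChartMap

variable (hq : ChartMap q)
include hq

theorem at0_iff {n : WithTop ℕ∞} {κ : ℤ} {s : N → V} {x : M} :
    At0 n κ (fun y => s (q y)) x ↔ At0 n κ s (q x) := by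
  rw [At0, At0, hq.apply_eq]
  exact contDiffAt_iff_of_ev (hq.loc0_ev κ s (hq.chRel x))

theorem at1_iff {n : WithTop ℕ∞} {κ : ℤ} {s : N → Fin 2 → V} {x : M} :
    At1 n κ (fun y => s (q y)) x ↔ At1 n κ s (q x) := by
  rw [At1, At1, hq.apply_eq]
  exact contDiffAt_iff_of_ev (hq.loc1_ev κ s (hq.chRel x))

theorem at2_iff {n : WithTop ℕ∞} {κ : ℤ} {s : N → V} {x : M} :
    At2 n κ (fun y => s (q y)) x ↔ At2 n κ s (q x) := by
  rw [At2, At2, hq.apply_eq]
  exact contDiffAt_iff_of_ev (hq.loc2_ev κ s (hq.chRel x))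

theorem g10_iff {n : WithTop ℕ∞} {s : N → Fin 2 → V} {x : M} :
    G10 n (fun y => s (q y)) x ↔ G10 n s (q x) := hq.reg10_at s x

theorem g11_iff {n : WithTop ℕ∞} {s : N → Matrix (Fin 2) (Fin 2) V} {x : M} :
    G11 n (fun y => s (q y)) x ↔ G11 n s (q x) :=
  forall_congr' fun i => forall_congr' fun j => hq.reg11_at s x i j

theorem del11_comp (g : N → Matrix (Fin 2) (Fin 2) ℂ) (x : M) :
    del11 (fun y => g (q y)) x = del11 g (q x) := by
  have h := hq.loc11_ev g (hq.chRel x)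
  have h1 : ∀ i k l, dz i (fun z => loc11 (chartAt C2 x) (fun y => g (q y)) z k l)
      (chartAt C2 x x) = dz i (fun z => loc11 (chartAt C2 (q x)) g z k l) (chartAt C2 x x) := by
    intro i k l
    refine dz_congr ?_ i
    filter_upwards [h] with z hz
    rw [hz]
  funext j
  rw [del11, del11, hq.apply_eq, h1, h1]

end ChartMap

variable [T2Space M] [T2Space N]

/-! #### regularity -/

theorem reg0_push (hq : ChartMap q) {n : WithTop ℕ∞} {κ : ℤ} {b : M → V} (hr : Reg0 n κ b)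
    (hc : HasCompactSupport b) : Reg0 n κ (push q b) :=
  reg0_iff_at.2 fun y => push_reg hq (GM := At0 n κ) (GN := At0 n κ)
    (fun _ _ _ h h' => h.congr h') (fun _ _ _ h h' => h.congr h')
    (fun _ _ h => hq.at0_iff.1 h) (fun _ _ _ h => At0.sum h) hc (reg0_iff_at.1 hr) y

theorem reg1_push (hq : ChartMap q) {n : WithTop ℕ∞} {κ : ℤ} {b : M → Fin 2 → V}
    (hr : Reg1 n κ b) (hc : HasCompactSupport b) : Reg1 n κ (push q b) :=
  reg1_iff_at.2 fun y => push_reg hq (GM := At1 n κ) (GN := At1 n κ)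
    (fun _ _ _ h h' => h.congr h') (fun _ _ _ h h' => h.congr h')
    (fun _ _ h => hq.at1_iff.1 h) (fun _ _ _ h => At1.sum h) hc (reg1_iff_at.1 hr) y

theorem reg2_push' (hq : ChartMap q) {n : WithTop ℕ∞} {κ : ℤ} {b : M → V} (hr : Reg2 n κ b)
    (hc : HasCompactSupport b) : Reg2 n κ (push q b) :=
  reg2_iff_at.2 fun y => push_reg hq (GM := At2 n κ) (GN := At2 n κ)
    (fun _ _ _ h h' => h.congr h') (fun _ _ _ h h' => h.congr h')
    (fun _ _ h => hq.at2_iff.1 h) (fun _ _ _ h => At2.sum h) hc (reg2_iff_at.1 hr) y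

theorem reg10_push (hq : ChartMap q) {n : WithTop ℕ∞} {b : M → Fin 2 → V} (hr : Reg10 n b)
    (hc : HasCompactSupport b) : Reg10 n (push q b) :=
  reg10_iff'.2 fun y => push_reg hq (GM := G10 n) (GN := G10 n)
    (fun _ _ _ h h' => h.congr h') (fun _ _ _ h h' => h.congr h')
    (fun _ _ h => hq.g10_iff.1 h) (fun _ _ _ h => G10.sum h) hc (reg10_iff'.1 hr) y

theorem reg11_push (hq : ChartMap q) {n : WithTop ℕ∞} {b : M → Matrix (Fin 2) (Fin 2) V}
    (hr : Reg11 n b) (hc : HasCompactSupport b) : Reg11 n (push q b) :=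
  reg11_iff'.2 fun y => push_reg hq (GM := G11 n) (GN := G11 n)
    (fun _ _ _ h h' => h.congr h') (fun _ _ _ h h' => h.congr h')
    (fun _ _ h => hq.g11_iff.1 h) (fun _ _ _ h => G11.sum h) hc (reg11_iff'.1 hr) y

/-! #### differential operators -/

theorem dbar0_push (hq : ChartMap q) {κ : ℤ} {b : M → V} (hr : Reg0 1 κ b)
    (hc : HasCompactSupport b) (y : N) : dbar0 κ (push q b) y = push q (dbar0 κ b) y :=
  push_op hq (PM := dbar0 κ) (PN := dbar0 κ) (GM := At0 1 κ) (GN := At0 1 κ)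
    (fun _ _ _ h h' => h.congr h') (fun _ _ h => hq.at0_iff.1 h)
    (fun _ _ _ h => dbar0_congr h) (fun _ _ _ h => dbar0_congr h)
    (fun c x => hq.dbar0_comp κ c x) (fun _ => dbar0_zero) (fun _ _ _ h => dbar0_sum h) hc
    (reg0_iff_at.1 hr) y

theorem dbar1_push (hq : ChartMap q) {κ : ℤ} {b : M → Fin 2 → V} (hr : Reg1 1 κ b)
    (hc : HasCompactSupport b) (y : N) : dbar1 κ (push q b) y = push q (dbar1 κ b) y :=
  push_op hq (PM := dbar1 κ) (PN := dbar1 κ) (GM := At1 1 κ) (GN := At1 1 κ)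
    (fun _ _ _ h h' => h.congr h') (fun _ _ h => hq.at1_iff.1 h)
    (fun _ _ _ h => dbar1_congr h) (fun _ _ _ h => dbar1_congr h)
    (fun c x => hq.dbar1_comp κ c x) (fun x => by
      have := dbar1_sum (κ := κ) (x := x) (S := (∅ : Finset ℕ)) (s := fun _ _ => (0 : Fin 2 → V))
        (fun i hi => by simp at hi)
      simpa using this) (fun _ _ _ h => dbar1_sum h) hc
    (reg1_iff_at.1 hr) y

theorem del0_push (hq : ChartMap q) {b : M → V} (hr : Reg0 1 0 b)
    (hc : HasCompactSupport b) (y : N) : del0 (push q b) y = push q (del0 b) y :=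
  push_op hq (PM := del0) (PN := del0) (GM := At0 1 0) (GN := At0 1 0)
    (fun _ _ _ h h' => h.congr h') (fun _ _ h => hq.at0_iff.1 h)
    (fun _ _ _ h => del0_congr h) (fun _ _ _ h => del0_congr h)
    (fun c x => hq.del0_comp c x) (fun x => by
      have := del0_sum (x := x) (S := (∅ : Finset ℕ)) (s := fun _ _ => (0 : V))
        (fun i hi => by simp at hi)
      simpa using this) (fun _ _ _ h => del0_sum h) hc
    (reg0_iff_at.1 hr) y

theorem del1_push (hq : ChartMap q) {b : M → Fin 2 → V} (hr : Reg1 1 0 b)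
    (hc : HasCompactSupport b) (y : N) : del1 (push q b) y = push q (del1 b) y :=
  push_op hq (PM := del1) (PN := del1) (GM := At1 1 0) (GN := At1 1 0)
    (fun _ _ _ h h' => h.congr h') (fun _ _ h => hq.at1_iff.1 h)
    (fun _ _ _ h => del1_congr h) (fun _ _ _ h => del1_congr h)
    (fun c x => hq.del1_comp c x) (fun x => by
      have := del1_sum (x := x) (S := (∅ : Finset ℕ)) (s := fun _ _ => (0 : Fin 2 → V))
        (fun i hi => by simp at hi)
      simpa using this) (fun _ _ _ h => del1_sum h) hc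
    (reg1_iff_at.1 hr) y

theorem dbar10_push (hq : ChartMap q) {b : M → Fin 2 → V} (hr : Reg10 1 b)
    (hc : HasCompactSupport b) (y : N) : dbar10 (push q b) y = push q (dbar10 b) y :=
  push_op hq (PM := dbar10) (PN := dbar10) (GM := G10 1) (GN := G10 1)
    (fun _ _ _ h h' => h.congr h') (fun _ _ h => hq.g10_iff.1 h)
    (fun _ _ _ h => dbar10_congr h) (fun _ _ _ h => dbar10_congr h)
    (fun c x => hq.dbar10_comp c x) (fun x => by
      have := dbar10_sum (x := x) (S := (∅ : Finset ℕ)) (s := fun _ _ => (0 : Fin 2 → V))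
        (fun i hi => by simp at hi)
      simpa using this) (fun _ _ _ h => dbar10_sum h) hc
    (reg10_iff'.1 hr) y

theorem del10_push (hq : ChartMap q) {b : M → Fin 2 → ℂ} (hr : Reg10 1 b)
    (hc : HasCompactSupport b) (y : N) : del10 (push q b) y = push q (del10 b) y :=
  push_op hq (PM := del10) (PN := del10) (GM := G10 1) (GN := G10 1)
    (fun _ _ _ h h' => h.congr h') (fun _ _ h => hq.g10_iff.1 h)
    (fun _ _ _ h => del10_congr h) (fun _ _ _ h => del10_congr h)
    (fun c x => hq.del10_comp c x) (fun x => by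
      have := del10_sum (x := x) (S := (∅ : Finset ℕ)) (s := fun _ _ => (0 : Fin 2 → ℂ))
        (fun i hi => by simp at hi)
      simpa using this) (fun _ _ _ h => del10_sum h) hc
    (reg10_iff'.1 hr) y

theorem del11_push (hq : ChartMap q) {b : M → Matrix (Fin 2) (Fin 2) ℂ} (hr : Reg11 1 b)
    (hc : HasCompactSupport b) (y : N) : del11 (push q b) y = push q (del11 b) y :=
  push_op hq (PM := del11) (PN := del11) (GM := G11 1) (GN := G11 1)
    (fun _ _ _ h h' => h.congr h') (fun _ _ h => hq.g11_iff.1 h)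
    (fun _ _ _ h => del11_congr h) (fun _ _ _ h => del11_congr h)
    (fun c x => hq.del11_comp c x) (fun x => by
      have := del11_sum (x := x) (S := (∅ : Finset ℕ))
        (s := fun _ _ => (0 : Matrix (Fin 2) (Fin 2) ℂ)) (fun i hi => by simp at hi)
      simpa using this) (fun _ _ _ h => del11_sum h) hc
    (reg11_iff'.1 hr) y

end push

/-! ### one-forms and two-forms -/

section map

variable {M N : Type*} [TopologicalSpace M] [TopologicalSpace N] [T2Space N] {q : M → N}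
variable {W W' : Type*} [AddCommMonoid W] [AddCommMonoid W']

theorem push_map (hq : IsLocalHomeomorph q) (T : W →+ W') {b : M → W} {K : Set M}
    (hK : IsCompact K) (hb : ∀ x ∉ K, b x = 0) (y : N) :
    push q (fun x => T (b x)) y = T (push q b y) := by
  rw [push_eq_sum hq hK hb, push_eq_sum hq hK (b := fun x => T (b x)) (fun x hx => by
    simp only [hb x hx, map_zero]), map_sum]

theorem push_add (hq : IsLocalHomeomorph q) {b c : M → W} {K : Set M}
    (hK : IsCompact K) (hb : ∀ x ∉ K, b x = 0) (hc : ∀ x ∉ K, c x = 0) (y : N) :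
    push q (fun x => b x + c x) y = push q b y + push q c y := by
  rw [push_eq_sum hq hK hb, push_eq_sum hq hK hc, push_eq_sum hq hK (b := fun x => b x + c x)
    (fun x hx => by simp only [hb x hx, hc x hx, add_zero]), Finset.sum_add_distrib]

theorem push_const_zero (y : N) : push q (fun _ => (0 : W)) y = 0 :=
  push_eq_zero fun _ _ => rfl

end map

/-- value of a two-form at a point -/
def tot {M : Type*} (F : TwoF M) (x : M) : ℂ × Matrix (Fin 2) (Fin 2) ℂ × ℂ :=
  (F.f20 x, F.f11 x, F.f02 x)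

/-- wedge product of values -/
def wdg (u v : ℂ × Matrix (Fin 2) (Fin 2) ℂ × ℂ) : ℂ :=
  u.1 * v.2.2 + u.2.2 * v.1 -
    (u.2.1 0 0 * v.2.1 1 1 + u.2.1 1 1 * v.2.1 0 0 - u.2.1 0 1 * v.2.1 1 0 -
      u.2.1 1 0 * v.2.1 0 1)

theorem wedge_eq_wdg {M : Type*} (F G : TwoF M) (x : M) : F.wedge G x = wdg (tot F x) (tot G x) :=
  rfl

/-- `wdg` is additive in the first variable -/
def wdgL (v : ℂ × Matrix (Fin 2) (Fin 2) ℂ × ℂ) : (ℂ × Matrix (Fin 2) (Fin 2) ℂ × ℂ) →+ ℂ :=
  AddMonoidHom.mk' (fun u => wdg u v) (by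
    intro a b
    simp only [wdg, Prod.fst_add, Prod.snd_add, Matrix.add_apply]
    ring)

/-- `wdg` is additive in the second variable -/
def wdgR (u : ℂ × Matrix (Fin 2) (Fin 2) ℂ × ℂ) : (ℂ × Matrix (Fin 2) (Fin 2) ℂ × ℂ) →+ ℂ :=
  AddMonoidHom.mk' (fun v => wdg u v) (by
    intro a b
    simp only [wdg, Prod.fst_add, Prod.snd_add, Matrix.add_apply]
    ring)

theorem wdgL_apply (u v : ℂ × Matrix (Fin 2) (Fin 2) ℂ × ℂ) : wdgL v u = wdg u v := rfl

theorem wdgR_apply (u v : ℂ × Matrix (Fin 2) (Fin 2) ℂ × ℂ) : wdgR u v = wdg u v := rfl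

/-- push-forward of a two-form -/
def push2 {M N : Type*} (q : M → N) (F : TwoF M) : TwoF N :=
  ⟨push q F.f20, push q F.f11, push q F.f02⟩

/-- push-forward of a one-form -/
def push1 {M N : Type*} (q : M → N) (A : OneF M) : OneF N := ⟨push q A.f10, push q A.f01⟩

/-- the two-form vanishes outside a compact set -/
def CF {M : Type*} [TopologicalSpace M] (F : TwoF M) : Prop :=
  ∃ K : Set M, IsCompact K ∧ ∀ x ∉ K, F.f20 x = 0 ∧ F.f11 x = 0 ∧ F.f02 x = 0

/-- the one-form vanishes outside a compact set -/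
def CF1 {M : Type*} [TopologicalSpace M] (A : OneF M) : Prop :=
  ∃ K : Set M, IsCompact K ∧ ∀ x ∉ K, A.f10 x = 0 ∧ A.f01 x = 0

section cf

variable {M : Type*} [TopologicalSpace M]

theorem CF.of_compact [CompactSpace M] (F : TwoF M) : CF F :=
  ⟨univ, isCompact_univ, fun x hx => absurd (mem_univ x) hx⟩

variable [R1Space M]

theorem CF.c20 {F : TwoF M} (h : CF F) : HasCompactSupport F.f20 := by
  obtain ⟨K, hK, h0⟩ := h
  exact HasCompactSupport.intro hK fun x hx => (h0 x hx).1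

theorem CF.c11 {F : TwoF M} (h : CF F) : HasCompactSupport F.f11 := by
  obtain ⟨K, hK, h0⟩ := h
  exact HasCompactSupport.intro hK fun x hx => (h0 x hx).2.1

theorem CF.c02 {F : TwoF M} (h : CF F) : HasCompactSupport F.f02 := by
  obtain ⟨K, hK, h0⟩ := h
  exact HasCompactSupport.intro hK fun x hx => (h0 x hx).2.2

theorem CF.tot {F : TwoF M} (h : CF F) : HasCompactSupport (tot F) := by
  obtain ⟨K, hK, h0⟩ := h
  refine HasCompactSupport.intro hK fun x hx => ?_
  rw [XT.tot, (h0 x hx).1, (h0 x hx).2.1, (h0 x hx).2.2]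
  rfl

theorem CF.wedge {F : TwoF M} (h : CF F) (G : TwoF M) : HasCompactSupport (F.wedge G) := by
  obtain ⟨K, hK, h0⟩ := h
  refine HasCompactSupport.intro hK fun x hx => ?_
  simp [TwoF.wedge, (h0 x hx).1, (h0 x hx).2.1, (h0 x hx).2.2]

theorem CF1.c10 {F : OneF M} (h : CF1 F) : HasCompactSupport F.f10 := by
  obtain ⟨K, hK, h0⟩ := h
  exact HasCompactSupport.intro hK fun x hx => (h0 x hx).1

theorem CF1.c01 {F : OneF M} (h : CF1 F) : HasCompactSupport F.f01 := by
  obtain ⟨K, hK, h0⟩ := h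
  exact HasCompactSupport.intro hK fun x hx => (h0 x hx).2

end cf

section push2

variable {M N : Type*} [TopologicalSpace M] [ChartedSpace C2 M] [TopologicalSpace N]
  [ChartedSpace C2 N] [IsManifold 𝓘(ℂ, C2) ω M] [IsManifold 𝓘(ℂ, C2) ω N]
  [T2Space M] [T2Space N] {q : M → N}

theorem tot_push2 (hq : ChartMap q) {F : TwoF M} (hc : CF F) (y : N) :
    tot (push2 q F) y = push q (tot F) y := by
  have h := hq.isLocalHomeomorph
  obtain ⟨K, hK, h0⟩ := hc
  have hb : ∀ x ∉ K, tot F x = 0 := fun x hx => by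
    rw [tot, (h0 x hx).1, (h0 x hx).2.1, (h0 x hx).2.2]
    rfl
  have h1 := push_map h (AddMonoidHom.fst ℂ (Matrix (Fin 2) (Fin 2) ℂ × ℂ)) hK hb y
  have h2 := push_map h ((AddMonoidHom.fst (Matrix (Fin 2) (Fin 2) ℂ) ℂ).comp
    (AddMonoidHom.snd ℂ (Matrix (Fin 2) (Fin 2) ℂ × ℂ))) hK hb y
  have h3 := push_map h ((AddMonoidHom.snd (Matrix (Fin 2) (Fin 2) ℂ) ℂ).comp
    (AddMonoidHom.snd ℂ (Matrix (Fin 2) (Fin 2) ℂ × ℂ))) hK hb y
  exact Prod.ext h1 (Prod.ext h2 h3)

theorem smooth_push2 (hq : ChartMap q) {F : TwoF M} (hF : F.Smooth) (hc : CF F) :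
    (push2 q F).Smooth :=
  ⟨reg0_push hq hF.s20 hc.c20, reg11_push hq hF.s11 hc.c11, reg2_push' hq hF.s02 hc.c02⟩

theorem smooth_push1 (hq : ChartMap q) {A : OneF M} (hA : A.Smooth) (hc : CF1 A) :
    (push1 q A).Smooth :=
  ⟨reg10_push hq hA.s10 hc.c10, reg1_push hq hA.s01 hc.c01⟩

omit [IsManifold 𝓘(ℂ, C2) ω M] [IsManifold 𝓘(ℂ, C2) ω N] in
theorem cf_push2 (hq : ChartMap q) {F : TwoF M} (hc : CF F) : CF (push2 q F) := by
  obtain ⟨K, hK, h0⟩ := hc
  refine ⟨q '' K, hK.image hq.cont, fun y hy => ⟨?_, ?_, ?_⟩⟩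
  · exact push_eq_zero fun x hx => (h0 x fun h => hy ⟨x, h, hx⟩).1
  · exact push_eq_zero fun x hx => (h0 x fun h => hy ⟨x, h, hx⟩).2.1
  · exact push_eq_zero fun x hx => (h0 x fun h => hy ⟨x, h, hx⟩).2.2

theorem d21_eq_zero {F : TwoF M} {K : Set M} (hK : IsClosed K)
    (h0 : ∀ x ∉ K, F.f20 x = 0 ∧ F.f11 x = 0 ∧ F.f02 x = 0) {x : M} (hx : x ∉ K) :
    dbar0 1 F.f20 x = 0 ∧ del11 F.f11 x = 0 := by
  have hx' : ∀ᶠ z in 𝓝 x, z ∉ K := hK.isOpen_compl.mem_nhds hx
  have e1 : F.f20 =ᶠ[𝓝 x] fun _ => 0 := hx'.mono fun z hz => (h0 z hz).1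
  have e2 : F.f11 =ᶠ[𝓝 x] fun _ => 0 := hx'.mono fun z hz => (h0 z hz).2.1
  refine ⟨by rw [dbar0_congr e1, dbar0_zero], ?_⟩
  rw [del11_congr e2]
  have := del11_sum (x := x) (S := (∅ : Finset ℕ))
    (s := fun _ _ => (0 : Matrix (Fin 2) (Fin 2) ℂ)) (fun i hi => by simp at hi)
  simpa using this

theorem d21_push2 (hq : ChartMap q) {F : TwoF M} (hF : F.Smooth) (hc : CF F) (y : N) :
    (push2 q F).d21 y = push q F.d21 y := by
  have h1 := dbar0_push hq (H469.r0mono hF.s20 H469.one_le_infty) hc.c20 y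
  have h2 := del11_push hq (H469.r11mono hF.s11 H469.one_le_infty) hc.c11 y
  obtain ⟨K, hK, h0⟩ := id hc
  have h4 := push_add hq.isLocalHomeomorph hK (fun x hx => (d21_eq_zero hK.isClosed h0 hx).1)
    (fun x hx => (d21_eq_zero hK.isClosed h0 hx).2) y
  rw [← h1, ← h2] at h4
  exact h4.symm

theorem push2_cjF (hq : ChartMap q) {F : TwoF M} (hc : CF F) :
    push2 q (cjF F) = cjF (push2 q F) := by
  have h := hq.isLocalHomeomorph
  obtain ⟨K, hK, h0⟩ := hc
  refine twoF_ext (fun y => ?_) (fun y => ?_) fun y => ?_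
  · exact push_map h (starRingEnd ℂ : ℂ →+* ℂ).toAddMonoidHom hK (fun x hx => (h0 x hx).2.2) y
  · let T : Matrix (Fin 2) (Fin 2) ℂ →+ Matrix (Fin 2) (Fin 2) ℂ := AddMonoidHom.mk'
      (fun g => Matrix.of fun i j => -conj (g j i)) (by
        intro a b
        ext i j
        simp only [Matrix.of_apply, Matrix.add_apply, map_add]
        ring)
    exact push_map h T hK (fun x hx => (h0 x hx).2.1) y
  · exact push_map h (starRingEnd ℂ : ℂ →+* ℂ).toAddMonoidHom hK (fun x hx => (h0 x hx).1) y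

omit [ChartedSpace C2 M] [IsManifold 𝓘(ℂ, C2) ω M] [T2Space M] in
theorem CF.cjF {F : TwoF M} (hc : CF F) : CF (cjF F) := by
  obtain ⟨K, hK, h0⟩ := hc
  refine ⟨K, hK, fun x hx => ⟨?_, ?_, ?_⟩⟩
  · change conj (F.f02 x) = 0
    rw [(h0 x hx).2.2, map_zero]
  · change (Matrix.of fun i j => -conj (F.f11 x j i)) = 0
    rw [(h0 x hx).2.1]
    ext i j
    simp
  · change conj (F.f20 x) = 0
    rw [(h0 x hx).1, map_zero]

theorem d12_push2 (hq : ChartMap q) {F : TwoF M} (hF : F.Smooth) (hc : CF F) (y : N) :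
    (push2 q F).d12 y = push q F.d12 y := by
  have hF' : (cjF F).Smooth := ⟨H469.r2cj hF.s02, H469.r11cj hF.s11, H469.r0cj' hF.s20⟩
  have h1 := d21_push2 hq hF' hc.cjF y
  rw [push2_cjF hq hc, H469.d21_cj, H469.d21_cj] at h1
  obtain ⟨K, hK, h0⟩ := hc.cjF
  have h2 : ∀ x ∉ K, F.d12 x = 0 := by
    intro x hx
    have h3 := d21_eq_zero hK.isClosed h0 hx
    have h4 : (cjF F).d21 x = 0 := by
      have := congrFun (H469.d21_eq (cjF F)) x
      rw [this]
      funext j
      change dbar0 1 (cjF F).f20 x j + del11 (cjF F).f11 x j = 0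
      rw [h3.1, h3.2]
      simp
    rw [H469.d21_cj] at h4
    funext j
    have h5 : conj (F.d12 x j) = 0 := congrFun h4 j
    simpa using h5
  let T : (Fin 2 → ℂ) →+ (Fin 2 → ℂ) := AddMonoidHom.mk' (fun g i => conj (g i)) (by
    intro a b
    funext i
    simp)
  have h6 := push_map hq.isLocalHomeomorph T hK h2 y
  have h7 : push q (cj1 F.d12) y = T (push q F.d12 y) := h6
  rw [h7] at h1
  funext j
  have h8 := congrFun h1 j
  change conj ((push2 q F).d12 y j) = conj (push q F.d12 y j) at h8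
  exact (starRingEnd ℂ).injective h8

theorem closed_push2 (hq : ChartMap q) {F : TwoF M} (hF : F.Smooth) (hc : CF F)
    (hcl : F.Closed) : (push2 q F).Closed := by
  constructor
  · intro y j
    rw [d21_push2 hq hF hc, push_eq_zero (fun x _ => funext fun j => hcl.1 x j)]
    rfl
  · intro y j
    rw [d12_push2 hq hF hc, push_eq_zero (fun x _ => funext fun j => hcl.2 x j)]
    rfl

theorem real_push2 (hq : ChartMap q) {F : TwoF M} (hc : CF F) (hF : F.Real) :
    (push2 q F).Real := by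
  have h1 : cjF F = F := twoF_ext (fun x => (hF x).1.symm) (fun x => by
    ext i j
    exact ((hF x).2 j i).symm) fun x => by
    have := (hF x).1
    change conj (F.f20 x) = F.f02 x
    rw [this, Complex.conj_conj]
  have h2 := push2_cjF hq hc
  rw [h1] at h2
  intro y
  constructor
  · have := congrArg (fun F => F.f20 y) h2
    exact this
  · intro i j
    have := congrArg (fun F => F.f11 y j i) h2
    exact this

omit [IsManifold 𝓘(ℂ, C2) ω M] [IsManifold 𝓘(ℂ, C2) ω N] [T2Space M] in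
/-- **projection formula**, pointwise -/
theorem push_wedge (hq : ChartMap q) {F : TwoF M} (hc : CF F) (G : TwoF N) (y : N)
    (htot : tot (push2 q F) y = push q (tot F) y) :
    push q (F.wedge (pull2 q G)) y = (push2 q F).wedge G y := by
  obtain ⟨K, hK, h0⟩ := hc
  have hb : ∀ x ∉ K, tot F x = 0 := fun x hx => by
    rw [tot, (h0 x hx).1, (h0 x hx).2.1, (h0 x hx).2.2]
    rfl
  have h1 : push q (F.wedge (pull2 q G)) y = push q (fun x => wdgL (tot G y) (tot F x)) y := by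
    refine finsum_mem_congr rfl fun x hx => ?_
    have hx' : q x = y := hx
    rw [wedge_eq_wdg, wdgL_apply, ← hx']
    rfl
  rw [h1, push_map hq.isLocalHomeomorph (wdgL (tot G y)) hK hb, wedge_eq_wdg, wdgL_apply, htot]

theorem push_wedge' (hq : ChartMap q) {F : TwoF M} (hc : CF F) (G : TwoF N) :
    push q (F.wedge (pull2 q G)) = (push2 q F).wedge G :=
  funext fun y => push_wedge hq hc G y (tot_push2 hq hc y)

/-- **projection formula**: `∫_N (q_* F) ∧ G = ∫_M F ∧ q^* G` -/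
theorem intX_push_wedge [SigmaCompactSpace M] [SigmaCompactSpace N] (hq : ChartMap q)
    {F : TwoF M} {G : TwoF N} (hF : F.Smooth) (hG : G.Smooth) (hc : CF F) :
    intX ((push2 q F).wedge G) = intX (F.wedge (pull2 q G)) := by
  rw [← push_wedge' hq hc G]
  have h : Reg2 ∞ 1 (F.wedge (pull2 q G)) := H469.wedge_mem hF (hq.smooth_pull2 hG)
  exact intX_push hq (h.of_le zero_le) (hc.wedge _)

/-! #### `d` commutes with the push-forward -/

theorem d_eq_zero {A : OneF M} {K : Set M} (hK : IsClosed K)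
    (h0 : ∀ x ∉ K, A.f10 x = 0 ∧ A.f01 x = 0) {x : M} (hx : x ∉ K) :
    del10 A.f10 x = 0 ∧ del1 A.f01 x = 0 ∧ dbar10 A.f10 x = 0 ∧ dbar1 0 A.f01 x = 0 := by
  have hx' : ∀ᶠ z in 𝓝 x, z ∉ K := hK.isOpen_compl.mem_nhds hx
  have e1 : A.f10 =ᶠ[𝓝 x] fun _ => 0 := hx'.mono fun z hz => (h0 z hz).1
  have e2 : A.f01 =ᶠ[𝓝 x] fun _ => 0 := hx'.mono fun z hz => (h0 z hz).2
  have i1 := del10_sum (x := x) (S := (∅ : Finset ℕ)) (s := fun _ _ => (0 : Fin 2 → ℂ))
    (fun i hi => by simp at hi)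
  have i2 := del1_sum (x := x) (S := (∅ : Finset ℕ)) (s := fun _ _ => (0 : Fin 2 → ℂ))
    (fun i hi => by simp at hi)
  have i3 := dbar10_sum (x := x) (S := (∅ : Finset ℕ)) (s := fun _ _ => (0 : Fin 2 → ℂ))
    (fun i hi => by simp at hi)
  have i4 := dbar1_sum (κ := 0) (x := x) (S := (∅ : Finset ℕ)) (s := fun _ _ => (0 : Fin 2 → ℂ))
    (fun i hi => by simp at hi)
  simp only [Finset.sum_empty] at i1 i2 i3 i4
  exact ⟨(del10_congr e1).trans i1, (del1_congr e2).trans i2, (dbar10_congr e1).trans i3,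
    (dbar1_congr e2).trans i4⟩

theorem d_push1 (hq : ChartMap q) {A : OneF M} (hA : A.Smooth) (hc : CF1 A) :
    (push1 q A).d = push2 q A.d := by
  have h1 := fun y => del10_push hq (H469.r10mono hA.s10 H469.one_le_infty) hc.c10 y
  have h2 := fun y => del1_push hq (H469.r1mono hA.s01 H469.one_le_infty) hc.c01 y
  have h3 := fun y => dbar10_push hq (H469.r10mono hA.s10 H469.one_le_infty) hc.c10 y
  have h4 := fun y => dbar1_push hq (H469.r1mono hA.s01 H469.one_le_infty) hc.c01 y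
  obtain ⟨K, hK, h0⟩ := id hc
  refine twoF_ext h1 (fun y => ?_) h4
  have h5 := push_add hq.isLocalHomeomorph hK
    (fun x hx => (d_eq_zero hK.isClosed h0 hx).2.1)
    (fun x hx => (d_eq_zero hK.isClosed h0 hx).2.2.1) y
  rw [← h2, ← h3] at h5
  exact h5.symm

theorem CF1.d {A : OneF M} (hc : CF1 A) : CF A.d := by
  obtain ⟨K, hK, h0⟩ := hc
  refine ⟨K, hK, fun x hx => ?_⟩
  obtain ⟨h1, h2, h3, h4⟩ := d_eq_zero hK.isClosed h0 hx
  refine ⟨h1, ?_, h4⟩
  change del1 A.f01 x + dbar10 A.f10 x = 0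
  rw [h2, h3, add_zero]

end push2

end Vale.Agent.P267.XT
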