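import Vale.Agent.P267.H622.Push
import Vale.Agent.P267.H877.Setup

/-!
# P267 / XM-DESC (helper622): the push-forward formula for `XTData`
-/

set_option linter.unusedVariables false
set_option linter.unusedSectionVars false

open scoped Manifold ContDiff ComplexConjugate Matrix ComplexOrder
open MeasureTheory Set Filter Topology Function

noncomputable section

namespace Vale.Agent.P267.XT

open FL Vale.Agent.P267.H928

namespace XTData

variable {M : Type} [TopologicalSpace M] [ChartedSpace C2 M] (D : XTData M)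

include D in
theorem sigmaCompact : SigmaCompactSpace M := by
  refine ⟨⟨fun n : ℕ => D.f ⁻¹' Icc (-(n : ℝ)) n, fun n => D.f_proper _ _, ?_⟩⟩
  refine eq_univ_of_forall fun z => ?_
  obtain ⟨n, hn⟩ := exists_nat_ge |D.f z|
  rw [mem_iUnion]
  exact ⟨n, (abs_le.1 hn).1, (abs_le.1 hn).2⟩

theorem sh_inj_left (x : M) : Injective fun k : ℤ => D.sh k x := by
  intro j k h
  have h1 : D.f (D.sh j x) = D.f (D.sh k x) := congrArg D.f h
  rw [D.f_sh, D.f_sh] at h1
  exact_mod_cast add_left_cancel h1

variable {N : Type*} {W : Type*} [AddCommMonoid W]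

/-- the sum over the fibre of `q` is the sum over the orbit -/
theorem push_sh {q : M → N} (hqD : ∀ k x, q (D.sh k x) = q x)
    (orb : ∀ x y, q x = q y → ∃ k : ℤ, y = D.sh k x) (b : M → W) (x : M) :
    push q b (q x) = ∑ᶠ k : ℤ, b (D.sh k x) := by
  have h1 : q ⁻¹' {q x} = range fun k : ℤ => D.sh k x := by
    ext w
    simp only [mem_preimage, mem_singleton_iff, mem_range]
    constructor
    · intro h
      obtain ⟨k, hk⟩ := orb x w h.symm
      exact ⟨k, hk.symm⟩
    · rintro ⟨k, rfl⟩
      exact hqD k x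
  rw [push, h1, finsum_mem_range (D.sh_inj_left x)]

/-- the same for the quotient by `γ^m` -/
theorem push_shm {m : ℤ} (hm : m ≠ 0) {q : M → N} (hqD : ∀ x, q (D.sh m x) = q x)
    (orb : ∀ x y, q x = q y → ∃ k : ℤ, y = D.sh (m * k) x) (b : M → W) (x : M) :
    push q b (q x) = ∑ᶠ k : ℤ, b (D.sh (m * k) x) := by
  have hq' : ∀ k x, q (D.sh (m * k) x) = q x := by
    intro k
    induction k with
    | zero => intro x; simp
    | succ n ih =>
      intro x
      have : m * ((n : ℤ) + 1) = m * n + m := by ring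
      rw [this, D.sh_add, ih, hqD]
    | pred n ih =>
      intro x
      have : m * (-(n : ℤ) - 1) = m * (-(n : ℤ)) + (-m) := by ring
      rw [this, D.sh_add, ih]
      conv_rhs => rw [← D.sh_sh_neg m x, hqD]
  have h1 : q ⁻¹' {q x} = range fun k : ℤ => D.sh (m * k) x := by
    ext w
    simp only [mem_preimage, mem_singleton_iff, mem_range]
    constructor
    · intro h
      obtain ⟨k, hk⟩ := orb x w h.symm
      exact ⟨k, hk.symm⟩
    · rintro ⟨k, rfl⟩
      exact hq' k x
  rw [push, h1, finsum_mem_range]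
  intro j k h
  exact mul_left_cancel₀ hm (D.sh_inj_left x h)

variable {X : Type} [TopologicalSpace X] [ChartedSpace C2 X]
  [IsManifold 𝓘(ℂ, C2) ω M] [IsManifold 𝓘(ℂ, C2) ω X] [T2Space M] [T2Space X]

/-- `∫_X b' = ∫_M b` if `b' ∘ q = ∑_k b ∘ sh k` -/
theorem pushInt [SigmaCompactSpace X] {q : M → X} (hq : ChartMap q) (hs : Surjective q)
    (hqD : ∀ k x, q (D.sh k x) = q x) (orb : ∀ x y, q x = q y → ∃ k : ℤ, y = D.sh k x)
    {b : M → ℂ} {b' : X → ℂ} {n : WithTop ℕ∞} (hr : Reg2 n 1 b) (hc : HasCompactSupport b)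
    (h : ∀ x, b' (q x) = ∑ᶠ k : ℤ, b (D.sh k x)) : intX b' = intX b := by
  have := D.sigmaCompact
  have h1 : b' = push q b := by
    funext y
    obtain ⟨x, rfl⟩ := hs y
    rw [h, D.push_sh hqD orb]
  rw [h1]
  exact intX_push hq (hr.of_le zero_le) hc

end XTData

end Vale.Agent.P267.XT
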