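import Vale.Agent.P267.H622.CovMaps
import Vale.Agent.P267.H399.Calc2

/-!
# P267 / XM-DESC (helper622): twists by `exp (lam f)` and equivariant objects
-/

set_option linter.unusedVariables false
set_option linter.unusedSectionVars false

open scoped Manifold ContDiff ComplexConjugate Matrix ComplexOrder
open MeasureTheory Set Filter Topology

noncomputable section

namespace Vale.Agent.P267.XT

open FL

section act

variable {ι : Type} [Fintype ι] [DecidableEq ι]

theorem act_add' (P : Matrix ι ι ℂ) (v w : EuclideanSpace ℂ ι) :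
    LB.act P (v + w) = LB.act P v + LB.act P w := by
  ext i
  simp [LB.act, Matrix.mulVec_add]

theorem act_smul' (P : Matrix ι ι ℂ) (c : ℂ) (v : EuclideanSpace ℂ ι) :
    LB.act P (c • v) = c • LB.act P v := by
  ext i
  simp [LB.act, Matrix.mulVec_smul]

theorem act_sub' (P : Matrix ι ι ℂ) (v w : EuclideanSpace ℂ ι) :
    LB.act P (v - w) = LB.act P v - LB.act P w := by
  ext i
  simp [LB.act, Matrix.mulVec_sub]

theorem act_neg' (P : Matrix ι ι ℂ) (v : EuclideanSpace ℂ ι) :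
    LB.act P (-v) = -LB.act P v := by
  ext i
  simp [LB.act, Matrix.mulVec_neg]

@[simp] theorem act_zero' (P : Matrix ι ι ℂ) : LB.act P (0 : EuclideanSpace ℂ ι) = 0 := by
  ext i
  simp [LB.act]

end act

section twist

variable {M : Type*} [TopologicalSpace M] [ChartedSpace C2 M] [IsManifold 𝓘(ℂ, C2) ω M]

/-! ### exponentials -/

theorem dzb_exp {u : C2 → ℂ} {z : C2} (hu : DifferentiableAt ℝ u z) (i : Fin 2) :
    dzb i (fun y => Complex.exp (u y)) z = Complex.exp (u z) * dzb i u z := by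
  have h := (hu.hasFDerivAt.cexp).fderiv
  simp only [dzb]
  rw [h]
  simp only [smul_apply, smul_eq_mul]
  ring

theorem At0.cexp {n : WithTop ℕ∞} {u : M → ℂ} {x : M} (hu : At0 n 0 u x) :
    At0 n 0 (fun y => Complex.exp (u y)) x := by
  rw [At0, LB.loc0_zero] at *
  exact hu.cexp

theorem Reg0.cexp {n : WithTop ℕ∞} {u : M → ℂ} (hu : Reg0 n 0 u) :
    Reg0 n 0 (fun y => Complex.exp (u y)) :=
  reg0_iff_at.2 fun x => At0.cexp (hu.at x)

theorem dbar0_exp {u : M → ℂ} {x : M} (hu : At0 1 0 u x) (i : Fin 2) :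
    dbar0 0 (fun y => Complex.exp (u y)) x i = Complex.exp (u x) * dbar0 0 u x i := by
  have h1 := hu.diff le_rfl
  have h2 : u ((chartAt C2 x).symm (chartAt C2 x x)) = u x := by
    rw [(chartAt C2 x).left_inv (mem_chart_source C2 x)]
  rw [dbar0, dbar0]
  rw [LB.loc0_zero] at h1 ⊢
  rw [LB.loc0_zero]
  have := dzb_exp h1 i
  simp only [Function.comp_apply, h2] at this
  exact this

/-- `exp (lam f)` -/
def tw (lam : ℂ) (f : M → ℝ) (x : M) : ℂ := Complex.exp (lam * (f x : ℂ))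

omit [ChartedSpace C2 M] [IsManifold 𝓘(ℂ, C2) ω M] in
theorem tw_ne_zero (lam : ℂ) (f : M → ℝ) (x : M) : tw lam f x ≠ 0 := Complex.exp_ne_zero _

omit [ChartedSpace C2 M] [IsManifold 𝓘(ℂ, C2) ω M] in
theorem tw_neg (lam : ℂ) (f : M → ℝ) (x : M) : tw (-lam) f x = (tw lam f x)⁻¹ := by
  rw [tw, tw, neg_mul, Complex.exp_neg]

omit [ChartedSpace C2 M] [IsManifold 𝓘(ℂ, C2) ω M] in
theorem tw_mul (lam : ℂ) (f : M → ℝ) (x : M) : tw (-lam) f x * tw lam f x = 1 := by
  rw [tw_neg, inv_mul_cancel₀ (tw_ne_zero lam f x)]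

variable {f : M → ℝ} (hf : Reg0 ∞ 0 fun x => (f x : ℂ)) (lam : ℂ)
include hf

theorem reg0_lam : Reg0 ∞ 0 fun x => lam * (f x : ℂ) :=
  reg0_iff_at.2 fun x => (hf.at x).const_smul lam

theorem reg0_tw : Reg0 ∞ 0 (tw lam f) := Reg0.cexp (reg0_lam hf lam)

/-- the form `lam ∂̄f` -/
theorem dbar0_lam (x : M) (i : Fin 2) :
    dbar0 0 (fun x => lam * (f x : ℂ)) x i = lam * dbar0 0 (fun x => (f x : ℂ)) x i :=
  dbar0_const_smul lam ((hf.at x).of_le (by exact_mod_cast le_top)) i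

theorem dbar0_tw (x : M) (i : Fin 2) :
    dbar0 0 (tw lam f) x i = tw lam f x * (lam * dbar0 0 (fun x => (f x : ℂ)) x i) := by
  rw [← dbar0_lam hf lam]
  exact dbar0_exp (((reg0_lam hf lam).at x).of_le (by exact_mod_cast le_top)) i

theorem reg1_dbar_lam : Reg1 ∞ 0 fun x i => lam * dbar0 0 (fun x => (f x : ℂ)) x i := by
  have h := Reg0.dbar (reg0_lam hf lam) infty_add_one_le
  refine reg1_iff_at.2 fun x => ?_
  refine (h.at x).congr (Eventually.of_forall fun y => ?_)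
  funext i
  exact (dbar0_lam hf lam y i).symm

theorem dbar1_dbar_lam (x : M) :
    dbar1 0 (fun x i => lam * dbar0 0 (fun x => (f x : ℂ)) x i) x = 0 := by
  have h2 : (2 : WithTop ℕ∞) ≤ ∞ := WithTop.coe_le_coe.2 (le_top : (2 : ℕ∞) ≤ ⊤)
  have h := dbar1_dbar0 (((reg0_lam hf lam).at x).of_le h2)
  rw [← h]
  refine dbar1_congr (Eventually.of_forall fun y => ?_)
  funext i
  exact (dbar0_lam hf lam y i).symm

end twist

section twistL

variable {M : Type*} [TopologicalSpace M] [ChartedSpace C2 M] [IsManifold 𝓘(ℂ, C2) ω M]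
variable {ι : Type} [Fintype ι] [DecidableEq ι]

/-- the holomorphic structure `a + lam ∂̄f` -/
def twa (lam : ℂ) (f : M → ℝ) (a : M → Fin 2 → ℂ) (x : M) (i : Fin 2) : ℂ :=
  a x i + lam * dbar0 0 (fun x => (f x : ℂ)) x i

variable {f : M → ℝ} (hf : Reg0 ∞ 0 fun x => (f x : ℂ)) (lam : ℂ)

include hf in
theorem isHol_twa {L : LB M ι} {a : M → Fin 2 → ℂ} (h : L.IsHol a) : L.IsHol (twa lam f a) where
  smooth := reg1_iff_at.2 fun x =>
    ((h.smooth.at x).add ((reg1_dbar_lam hf lam).at x))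
  integrable x := by
    have h1 := dbar1_add ((h.smooth.at x).of_le (by exact_mod_cast le_top))
      (((reg1_dbar_lam hf lam).at x).of_le (by exact_mod_cast le_top))
    rw [dbar1_dbar_lam hf lam x, add_zero] at h1
    have h2 := h.integrable x
    rw [← h1] at h2
    exact h2

/-- `∂̄_a (exp (lam f) v) = exp (lam f) ∂̄_{a + lam ∂̄f} v` -/
theorem db0_tw (hf : Reg0 ∞ 0 fun x => (f x : ℂ)) {L : LB M ι} (a : M → Fin 2 → ℂ) {κ : ℤ}
    {v : M → EuclideanSpace ℂ ι} {x : M} (hv : At0 1 κ v x) (hs : LB.act (L.P x) (v x) = v x)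
    (i : Fin 2) :
    L.db0 a κ (fun y => tw lam f y • v y) x i = tw lam f x • L.db0 (twa lam f a) κ v x i := by
  have h1 : At0 1 0 (tw lam f) x := ((reg0_tw hf lam).at x).of_le (by exact_mod_cast le_top)
  rw [LB.db0, LB.db0, dbar0_smul h1 hv, dbar0_tw hf, act_add', act_smul', act_smul', hs, twa]
  module

theorem db1_tw (hf : Reg0 ∞ 0 fun x => (f x : ℂ)) {L : LB M ι} (a : M → Fin 2 → ℂ) {κ : ℤ}
    {w : M → Fin 2 → EuclideanSpace ℂ ι} {x : M} (hw : At1 1 κ w x)
    (hs : ∀ i, LB.act (L.P x) (w x i) = w x i) :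
    L.db1 a κ (fun y i => tw lam f y • w y i) x = tw lam f x • L.db1 (twa lam f a) κ w x := by
  have h1 : At0 1 0 (tw lam f) x := ((reg0_tw hf lam).at x).of_le (by exact_mod_cast le_top)
  rw [LB.db1, LB.db1, dbar1_smul h1 hw, dbar0_tw hf, dbar0_tw hf, act_add', act_sub', act_smul',
    act_smul', act_smul', hs, hs, twa, twa]
  module

end twistL

end Vale.Agent.P267.XT
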